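import Vale.Agent.P254.SP.H448.OneD
import Vale.Agent.P254.S3.H533.C1

/-!
P254, line (SP_0): `w' ≤ nu / 10`, `θ'' ≤ nu / 6`, `w', θ'' ≥ - nu / 48` (helper448),
`w = r' + r r''`, `θ' = w + r'²`.
-/

set_option linter.all false

namespace Vale.Agent.P254.SP448

open Real Set Filter Topology MeasureTheory
open Vale.Agent.P254.H876 (ph Ph P1 lam m v)
open Vale.Agent.P254.H156 (t lm nu r r1 r2)
open Vale.Agent.P254.S3 (barrier_bot)

/-- derivative of a polynomial in `b, v` times `Ph` -/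
theorem hasDerivAt_poly (α β γ δ c : ℝ) :
    HasDerivAt (fun c => (α * b c + β * b c ^ 2 + γ * (b c * v c) + δ * v c ^ 2) * Ph c)
      (Ph c / m c * (α * (2 * v c * (b c + v c))
        + β * (4 * b c * v c * (b c + v c) - (1 - v c) * b c ^ 2)
        + γ * (2 * v c ^ 2 * (b c + v c) + (1 - v c) * b c ^ 2)
        + δ * ((1 - v c) * v c * (2 * b c + v c)))) c := by
  have hb := hasDerivAt_b c
  have hv := hasDerivAt_v' c
  have h := (((((hb.const_mul α).add ((hb.pow 2).const_mul β)).add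
    ((hb.mul hv).const_mul γ)).add ((hv.pow 2).const_mul δ))).mul (H876.hasDerivAt_Ph c)
  refine h.congr_deriv ?_
  rw [← H876.lam_mul_Ph]
  simp only [Nat.cast_ofNat, Nat.reduceSub, pow_one, Pi.sub_apply, Pi.pow_apply, Pi.mul_apply,
    Pi.add_apply]
  have h1 := lam_m c
  have h2 := m_sq c
  have h3 := (H876.m_pos c).ne'
  have e : lam c = (1 - v c) / m c := by rw [← h1]; field_simp
  rw [e]
  field_simp
  have h4 : b c = m c ^ 2 - v c := rfl
  rw [h4]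
  ring

theorem tendsto_poly (α β γ δ : ℝ) :
    Tendsto (fun c => (α * b c + β * b c ^ 2 + γ * (b c * v c) + δ * v c ^ 2) * Ph c)
      atBot (𝓝 0) := by
  refine H876.tendsto_bdd_mul_Ph (C := |α| + |β| + |γ| + |δ|) fun c hc => ?_
  obtain ⟨h1, h2, h3, h4, h5, h6⟩ := bdd_facts hc
  have k1 : |α * b c| ≤ |α| := by
    rw [abs_mul, abs_of_pos h5]
    exact mul_le_of_le_one_right (abs_nonneg _) h6.le
  have k2 : |β * b c ^ 2| ≤ |β| := by
    rw [abs_mul, abs_of_pos (pow_pos h5 2)]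
    exact mul_le_of_le_one_right (abs_nonneg _) (by nlinarith)
  have k3 : |γ * (b c * v c)| ≤ |γ| := by
    rw [abs_mul, abs_of_pos (mul_pos h5 h3)]
    exact mul_le_of_le_one_right (abs_nonneg _) (by nlinarith)
  have k4 : |δ * v c ^ 2| ≤ |δ| := by
    rw [abs_mul, abs_of_pos (pow_pos h3 2)]
    exact mul_le_of_le_one_right (abs_nonneg _) (by nlinarith)
  calc |α * b c + β * b c ^ 2 + γ * (b c * v c) + δ * v c ^ 2|
      ≤ |α * b c + β * b c ^ 2 + γ * (b c * v c)| + |δ * v c ^ 2| := abs_add_le _ _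
    _ ≤ (|α * b c + β * b c ^ 2| + |γ * (b c * v c)|) + |δ * v c ^ 2| := by
        gcongr; exact abs_add_le _ _
    _ ≤ ((|α * b c| + |β * b c ^ 2|) + |γ * (b c * v c)|) + |δ * v c ^ 2| := by
        gcongr; exact abs_add_le _ _
    _ ≤ |α| + |β| + |γ| + |δ| := by linarith

/-- planar barrier: if the polynomial `G` can be negative only where the derivative of `G Ph` is
nonnegative, then `G ≥ 0` -/
theorem poly_nonneg (α β γ δ : ℝ)
    (h : ∀ B W : ℝ, 0 < B → 0 < W → W < 1 →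
      α * B + β * B ^ 2 + γ * (B * W) + δ * W ^ 2 < 0 →
      0 ≤ α * (2 * W * (B + W)) + β * (4 * B * W * (B + W) - (1 - W) * B ^ 2)
        + γ * (2 * W ^ 2 * (B + W) + (1 - W) * B ^ 2) + δ * ((1 - W) * W * (2 * B + W))) (c : ℝ) :
    0 ≤ α * b c + β * b c ^ 2 + γ * (b c * v c) + δ * v c ^ 2 := by
  have hb := barrier_bot (fun x => hasDerivAt_poly α β γ δ x) (fun x hx => by
    have hP := H876.Ph_pos x
    have h1 : α * b x + β * b x ^ 2 + γ * (b x * v x) + δ * v x ^ 2 < 0 := by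
      by_contra hcon
      push Not at hcon
      have := mul_nonneg hcon hP.le
      linarith
    have h2 := h (b x) (v x) (b_pos x) (H876.v_pos x) (H876.v_lt_one x) h1
    have h3 : 0 < Ph x / m x := div_pos hP (H876.m_pos x)
    exact mul_nonneg h3.le h2) le_rfl (tendsto_poly α β γ δ) c
  by_contra hcon
  push Not at hcon
  have := mul_neg_of_neg_of_pos hcon (H876.Ph_pos c)
  linarith

/-- (W): `4 Q² ≤ (21/10) (2 n² + 3 n V + V² + b)`, `n = b + V`, `Q = b + 2 V` -/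
theorem W_planar (c : ℝ) :
    0 ≤ 21 / 10 * b c + 1 / 5 * b c ^ 2 + (-(13 / 10)) * (b c * v c) + (-(17 / 5)) * v c ^ 2 := by
  refine poly_nonneg _ _ _ _ (fun B W hB hW hW1 h => ?_) c
  have e : 21 / 10 * (2 * W * (B + W)) + 1 / 5 * (4 * B * W * (B + W) - (1 - W) * B ^ 2)
        + (-(13 / 10)) * (2 * W ^ 2 * (B + W) + (1 - W) * B ^ 2)
        + (-(17 / 5)) * ((1 - W) * W * (2 * B + W))
      = (23 / 10 * W - 3 / 2) * B ^ 2 + (5 * W - 13 / 5) * W * B + 4 / 5 * W ^ 2 * (1 + W) := by ring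
  rw [e]
  have h1 : B * (21 - 13 * W) < 34 * W ^ 2 := by nlinarith [sq_nonneg B]
  have hd : 0 < 21 - 13 * W := by linarith
  have h2 : 0 < B * (21 - 13 * W) := mul_pos hB hd
  have h3 : (B * (21 - 13 * W)) ^ 2 ≤ (34 * W ^ 2) ^ 2 := pow_le_pow_left₀ h2.le h1.le 2
  have hd2 : 0 < (21 - 13 * W) ^ 2 := by positivity
  have hW2 : 0 < W ^ 2 := by positivity
  suffices hs : 0 ≤ ((23 / 10 * W - 3 / 2) * B ^ 2 + (5 * W - 13 / 5) * W * B
      + 4 / 5 * W ^ 2 * (1 + W)) * (21 - 13 * W) ^ 2 from nonneg_of_mul_nonneg_left hs hd2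
  have e2 : ((23 / 10 * W - 3 / 2) * B ^ 2 + (5 * W - 13 / 5) * W * B
      + 4 / 5 * W ^ 2 * (1 + W)) * (21 - 13 * W) ^ 2
      = (23 / 10 * W - 3 / 2) * (B * (21 - 13 * W)) ^ 2
        + (5 * W - 13 / 5) * W * (B * (21 - 13 * W)) * (21 - 13 * W)
        + 4 / 5 * W ^ 2 * (1 + W) * (21 - 13 * W) ^ 2 := by ring
  rw [e2]
  by_cases hc : W ≤ 13 / 25
  · have k1 : (23 / 10 * W - 3 / 2) * (34 * W ^ 2) ^ 2
        ≤ (23 / 10 * W - 3 / 2) * (B * (21 - 13 * W)) ^ 2 :=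
      mul_le_mul_of_nonpos_left h3 (by linarith)
    have k2 : (5 * W - 13 / 5) * (W * (21 - 13 * W)) * (34 * W ^ 2)
        ≤ (5 * W - 13 / 5) * (W * (21 - 13 * W)) * (B * (21 - 13 * W)) :=
      mul_le_mul_of_nonpos_left h1.le
        (mul_nonpos_of_nonpos_of_nonneg (by linarith) (mul_pos hW hd).le)
    have k3 : 0 ≤ W ^ 2 * (584 * W ^ 3 + 13418 / 5 * W ^ 2 - 9702 / 5 * W + 1764 / 5) := by
      refine mul_nonneg hW2.le ?_
      nlinarith [sq_nonneg (W - 361 / 1000), pow_pos hW 3]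
    have e3 : W ^ 2 * (584 * W ^ 3 + 13418 / 5 * W ^ 2 - 9702 / 5 * W + 1764 / 5)
        = (23 / 10 * W - 3 / 2) * (34 * W ^ 2) ^ 2
          + (5 * W - 13 / 5) * (W * (21 - 13 * W)) * (34 * W ^ 2)
          + 4 / 5 * W ^ 2 * (1 + W) * (21 - 13 * W) ^ 2 := by ring
    have e4 : (5 * W - 13 / 5) * W * (B * (21 - 13 * W)) * (21 - 13 * W)
        = (5 * W - 13 / 5) * (W * (21 - 13 * W)) * (B * (21 - 13 * W)) := by ring
    rw [e4]
    rw [e3] at k3
    linarith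
  · push Not at hc
    have k4 : 0 ≤ (5 * W - 13 / 5) * W * (B * (21 - 13 * W)) * (21 - 13 * W) :=
      mul_nonneg (mul_nonneg (mul_nonneg (by linarith) hW.le) h2.le) hd.le
    have k5 : 0 < 4 / 5 * W ^ 2 * (1 + W) * (21 - 13 * W) ^ 2 := by positivity
    by_cases hc2 : 0 ≤ 23 / 10 * W - 3 / 2
    · have k6 : 0 ≤ (23 / 10 * W - 3 / 2) * (B * (21 - 13 * W)) ^ 2 :=
        mul_nonneg hc2 (sq_nonneg _)
      linarith
    · push Not at hc2
      have k1 : (23 / 10 * W - 3 / 2) * (34 * W ^ 2) ^ 2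
          ≤ (23 / 10 * W - 3 / 2) * (B * (21 - 13 * W)) ^ 2 :=
        mul_le_mul_of_nonpos_left h3 hc2.le
      have k7 : 0 ≤ W ^ 2 * (4 / 5 * (1 + W) * (21 - 13 * W) ^ 2
          + (23 / 10 * W - 3 / 2) * 1156 * W ^ 2) := by
        refine mul_nonneg hW2.le ?_
        have a1 : 150 ≤ (21 - 13 * W) ^ 2 := by nlinarith
        have a2 : W ^ 2 ≤ 43 / 100 := by nlinarith
        have a3 : (3 / 2 - 23 / 10 * W) * W ^ 2 ≤ 304 / 1000 * (43 / 100) :=
          mul_le_mul (by linarith) a2 hW2.le (by norm_num)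
        have a4 : 1 * 150 ≤ (1 + W) * (21 - 13 * W) ^ 2 :=
          mul_le_mul (by linarith) a1 (by norm_num) (by linarith)
        have a5 : (23 / 10 * W - 3 / 2) * 1156 * W ^ 2
            = -(1156 * ((3 / 2 - 23 / 10 * W) * W ^ 2)) := by ring
        rw [a5]
        have a6 : 4 / 5 * (1 + W) * (21 - 13 * W) ^ 2
            = 4 / 5 * ((1 + W) * (21 - 13 * W) ^ 2) := by ring
        rw [a6]
        linarith
      have e3 : W ^ 2 * (4 / 5 * (1 + W) * (21 - 13 * W) ^ 2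
          + (23 / 10 * W - 3 / 2) * 1156 * W ^ 2)
          = 4 / 5 * W ^ 2 * (1 + W) * (21 - 13 * W) ^ 2
            + (23 / 10 * W - 3 / 2) * (34 * W ^ 2) ^ 2 := by ring
      rw [e3] at k7
      linarith

/-- (T): `(4 n + 3 V)² ≤ (25/6) (4 n² + 5 n V + V² + b)` -/
theorem T_planar (c : ℝ) :
    0 ≤ 25 * b c + 4 * b c ^ 2 + (-11) * (b c * v c) + (-44) * v c ^ 2 := by
  refine poly_nonneg _ _ _ _ (fun B W hB hW hW1 h => ?_) c
  have e : 25 * (2 * W * (B + W)) + 4 * (4 * B * W * (B + W) - (1 - W) * B ^ 2)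
        + (-11) * (2 * W ^ 2 * (B + W) + (1 - W) * B ^ 2)
        + (-44) * ((1 - W) * W * (2 * B + W))
      = (31 * W - 15) * B ^ 2 + (82 * W - 38) * W * B + W ^ 2 * (6 + 22 * W) := by ring
  rw [e]
  have h1 : B * (25 - 11 * W) < 44 * W ^ 2 := by nlinarith [sq_nonneg B]
  have hd : 0 < 25 - 11 * W := by linarith
  have h2 : 0 < B * (25 - 11 * W) := mul_pos hB hd
  have h3 : (B * (25 - 11 * W)) ^ 2 ≤ (44 * W ^ 2) ^ 2 := pow_le_pow_left₀ h2.le h1.le 2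
  have hd2 : 0 < (25 - 11 * W) ^ 2 := by positivity
  have hW2 : 0 < W ^ 2 := by positivity
  suffices hs : 0 ≤ ((31 * W - 15) * B ^ 2 + (82 * W - 38) * W * B
      + W ^ 2 * (6 + 22 * W)) * (25 - 11 * W) ^ 2 from nonneg_of_mul_nonneg_left hs hd2
  have e2 : ((31 * W - 15) * B ^ 2 + (82 * W - 38) * W * B
      + W ^ 2 * (6 + 22 * W)) * (25 - 11 * W) ^ 2
      = (31 * W - 15) * (B * (25 - 11 * W)) ^ 2
        + (82 * W - 38) * W * (B * (25 - 11 * W)) * (25 - 11 * W)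
        + W ^ 2 * (6 + 22 * W) * (25 - 11 * W) ^ 2 := by ring
  rw [e2]
  by_cases hc : W ≤ 19 / 41
  · have k1 : (31 * W - 15) * (44 * W ^ 2) ^ 2
        ≤ (31 * W - 15) * (B * (25 - 11 * W)) ^ 2 :=
      mul_le_mul_of_nonpos_left h3 (by linarith)
    have k2 : (82 * W - 38) * (W * (25 - 11 * W)) * (44 * W ^ 2)
        ≤ (82 * W - 38) * (W * (25 - 11 * W)) * (B * (25 - 11 * W)) :=
      mul_le_mul_of_nonpos_left h1.le
        (mul_nonpos_of_nonpos_of_nonneg (by linarith) (mul_pos hW hd).le)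
    have k3 : 0 ≤ W ^ 2 * (22990 * W ^ 3 + 68178 * W ^ 2 - 31350 * W + 3750) := by
      refine mul_nonneg hW2.le ?_
      nlinarith [sq_nonneg (W - 23 / 100), pow_pos hW 3]
    have e3 : W ^ 2 * (22990 * W ^ 3 + 68178 * W ^ 2 - 31350 * W + 3750)
        = (31 * W - 15) * (44 * W ^ 2) ^ 2
          + (82 * W - 38) * (W * (25 - 11 * W)) * (44 * W ^ 2)
          + W ^ 2 * (6 + 22 * W) * (25 - 11 * W) ^ 2 := by ring
    have e4 : (82 * W - 38) * W * (B * (25 - 11 * W)) * (25 - 11 * W)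
        = (82 * W - 38) * (W * (25 - 11 * W)) * (B * (25 - 11 * W)) := by ring
    rw [e4]
    rw [e3] at k3
    linarith
  · push Not at hc
    have k4 : 0 ≤ (82 * W - 38) * W * (B * (25 - 11 * W)) * (25 - 11 * W) :=
      mul_nonneg (mul_nonneg (mul_nonneg (by linarith) hW.le) h2.le) hd.le
    have k5 : 0 < W ^ 2 * (6 + 22 * W) * (25 - 11 * W) ^ 2 := by positivity
    by_cases hc2 : 0 ≤ 31 * W - 15
    · have k6 : 0 ≤ (31 * W - 15) * (B * (25 - 11 * W)) ^ 2 :=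
        mul_nonneg hc2 (sq_nonneg _)
      linarith
    · push Not at hc2
      have k1 : (31 * W - 15) * (44 * W ^ 2) ^ 2
          ≤ (31 * W - 15) * (B * (25 - 11 * W)) ^ 2 :=
        mul_le_mul_of_nonpos_left h3 hc2.le
      have k7 : 0 ≤ W ^ 2 * ((6 + 22 * W) * (25 - 11 * W) ^ 2
          + (31 * W - 15) * 1936 * W ^ 2) := by
        refine mul_nonneg hW2.le ?_
        have a1 : 380 ≤ (25 - 11 * W) ^ 2 := by nlinarith
        have a2 : W ^ 2 ≤ 1 / 4 := by nlinarith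
        have a3 : (15 - 31 * W) * W ^ 2 ≤ 1 * (1 / 4) :=
          mul_le_mul (by linarith) a2 hW2.le (by norm_num)
        have a4 : 6 * 380 ≤ (6 + 22 * W) * (25 - 11 * W) ^ 2 :=
          mul_le_mul (by linarith) a1 (by norm_num) (by linarith)
        have a5 : (31 * W - 15) * 1936 * W ^ 2
            = -(1936 * ((15 - 31 * W) * W ^ 2)) := by ring
        rw [a5]
        linarith
      have e3 : W ^ 2 * ((6 + 22 * W) * (25 - 11 * W) ^ 2
          + (31 * W - 15) * 1936 * W ^ 2)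
          = W ^ 2 * (6 + 22 * W) * (25 - 11 * W) ^ 2
            + (31 * W - 15) * (44 * W ^ 2) ^ 2 := by ring
      rw [e3] at k7
      linarith

/-! ### `w'` -/

/-- `w' = 2 r' r'' + 2 r r' V - r² lm b` -/
noncomputable def w1 (x : ℝ) : ℝ :=
  2 * r1 x * r2 x + 2 * r x * r1 x * V x - r x ^ 2 * (lm x * (nu x ^ 2 - V x))

theorem hasDerivAt_w (x : ℝ) : HasDerivAt w (w1 x) x := by
  have h := ((H156.hasDerivAt_r1 x).pow 2).add (((H156.hasDerivAt_r x).pow 2).mul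
    (hasDerivAt_V x))
  have h2 : HasDerivAt w _ x := h.congr_of_eventuallyEq (Eventually.of_forall fun y => w_eq y)
  refine h2.congr_deriv ?_
  simp only [Nat.cast_ofNat, Nat.reduceSub, pow_one, Pi.pow_apply]
  unfold w1
  ring

/-- `nu w' = D2 r² - 2 r''²`, `D2 = 2 V² - (1 - V) b` -/
theorem nu_mul_w1 (x : ℝ) : nu x * w1 x
    = (2 * V x ^ 2 - (1 - V x) * (nu x ^ 2 - V x)) * r x ^ 2 - 2 * r2 x ^ 2 := by
  have e : lm x * nu x = 1 - V x := by rw [V_eq]; ring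
  have e1 : r1 x = 1 - r x * nu x := rfl
  unfold w1
  rw [r2_eq, e1]
  unfold Qd
  linear_combination (-(r x ^ 2 * (nu x ^ 2 - V x))) * e

theorem r2_le_nu (x : ℝ) : r2 x ≤ 5 / 49 * nu x := by
  have h := S3.r2_le x
  rw [H721.r2_eq] at h
  rw [r2_eq]
  unfold Qd
  have e1 : r x = H721.r x := rfl
  have e2 : nu x = H721.mm x := rfl
  have e3 : V x = H721.vv x := rfl
  rw [e1, e2, e3]
  linarith

theorem w1_ge (x : ℝ) : -(1 / 48 * nu x) ≤ w1 x := by
  have h1 := nu_mul_w1 x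
  have h2 := C_pos (-x)
  rw [b_eq] at h2
  have h3 := r2_le_nu x
  have h4 := H156.r2_pos x
  have h5 := H156.nu_pos x
  have h6 : r2 x ^ 2 ≤ (5 / 49 * nu x) ^ 2 := pow_le_pow_left₀ h4.le h3 2
  have h7 : 0 ≤ (2 * V x ^ 2 - (1 - V x) * (nu x ^ 2 - V x)) * r x ^ 2 := by
    refine mul_nonneg ?_ (sq_nonneg _)
    unfold V at *
    exact h2.le
  have h8 : nu x * -(1 / 48 * nu x) ≤ nu x * w1 x := by
    rw [h1]
    nlinarith [sq_nonneg (nu x)]
  exact le_of_mul_le_mul_left h8 h5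

theorem w1_le (x : ℝ) : w1 x ≤ 1 / 10 * nu x := by
  have h1 := nu_mul_w1 x
  have h2 := W_planar (-x)
  rw [b_eq] at h2
  have h5 := H156.nu_pos x
  have hV : v (-x) = V x := rfl
  rw [hV] at h2
  have hr := r2_eq x
  have hQ := Qd_pos x
  -- `ν w' = -2 n + 4 Q ν r - r² A`, `4 Q² ≤ (21/10) A`
  set A := 2 * Qd x ^ 2 - (2 * V x ^ 2 - (1 - V x) * (nu x ^ 2 - V x)) with hA
  have k1 : nu x * w1 x = -(2 * nu x ^ 2) + 4 * Qd x * nu x * r x - A * r x ^ 2 := by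
    rw [h1, hr, hA]
    ring
  have k2 : 4 * Qd x ^ 2 ≤ 21 / 10 * A := by
    rw [hA]
    unfold Qd
    nlinarith [h2]
  have hA0 : 0 < A := by nlinarith [pow_pos hQ 2]
  have k3 : 0 ≤ A * (21 / 10 * nu x ^ 2 - 4 * Qd x * nu x * r x + A * r x ^ 2) := by
    have h8 : 0 ≤ (A * r x - 2 * Qd x * nu x) ^ 2 := sq_nonneg _
    have h9 : 0 ≤ (21 / 10 * A - 4 * Qd x ^ 2) * nu x ^ 2 :=
      mul_nonneg (by linarith) (sq_nonneg _)
    have e : A * (21 / 10 * nu x ^ 2 - 4 * Qd x * nu x * r x + A * r x ^ 2)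
        = (A * r x - 2 * Qd x * nu x) ^ 2 + (21 / 10 * A - 4 * Qd x ^ 2) * nu x ^ 2 := by ring
    rw [e]
    linarith
  have k4 : 0 ≤ 21 / 10 * nu x ^ 2 - 4 * Qd x * nu x * r x + A * r x ^ 2 :=
    nonneg_of_mul_nonneg_right k3 hA0
  have h8 : nu x * w1 x ≤ nu x * (1 / 10 * nu x) := by
    rw [k1]
    nlinarith
  exact le_of_mul_le_mul_left h8 h5

theorem abs_w1_le (x : ℝ) : |w1 x| ≤ 1 / 10 * nu x := by
  have h1 := w1_ge x
  have h2 := w1_le x
  have h3 := H156.nu_pos x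
  rw [abs_le]
  constructor <;> linarith

/-! ### `θ''` -/

/-- `θ'' = w' + 2 r' r''` -/
noncomputable def th2 (x : ℝ) : ℝ := w1 x + 2 * (r1 x * r2 x)

theorem hasDerivAt_th1 (x : ℝ) : HasDerivAt th1 (th2 x) x := by
  have h := (hasDerivAt_w x).add ((H156.hasDerivAt_r1 x).pow 2)
  refine h.congr_deriv ?_
  simp only [Nat.cast_ofNat, Nat.reduceSub, pow_one]
  unfold th2
  ring

theorem th2_ge (x : ℝ) : -(1 / 48 * nu x) ≤ th2 x := by
  have h1 := w1_ge x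
  have h2 := mul_pos (H156.r1_pos x) (H156.r2_pos x)
  unfold th2
  linarith

theorem th2_le (x : ℝ) : th2 x ≤ 1 / 6 * nu x := by
  have h1 := nu_mul_w1 x
  have h2 := T_planar (-x)
  rw [b_eq] at h2
  have h5 := H156.nu_pos x
  have hV : v (-x) = V x := rfl
  rw [hV] at h2
  have hr := r2_eq x
  have hQ := Qd_pos x
  have hn : Qd x = nu x ^ 2 + V x := rfl
  have e1 : r1 x = 1 - r x * nu x := rfl
  -- `ν θ'' = -4 n + (6 Q + 2 n) ν r - r² A'`, `(3 Q + n)² ≤ (25/6) A'`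
  set A := 2 * Qd x ^ 2 - (2 * V x ^ 2 - (1 - V x) * (nu x ^ 2 - V x)) + 2 * nu x ^ 2 * Qd x
    with hA
  have k1 : nu x * th2 x = -(4 * nu x ^ 2) + (6 * Qd x + 2 * nu x ^ 2) * nu x * r x
      - A * r x ^ 2 := by
    unfold th2
    rw [mul_add, h1, hr, e1, hA]
    ring
  have k2 : (3 * Qd x + nu x ^ 2) ^ 2 ≤ 25 / 6 * A := by
    rw [hA, hn]
    nlinarith [h2]
  have hA0 : 0 < A := by
    have : 0 < (3 * Qd x + nu x ^ 2) ^ 2 := by positivity
    linarith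
  have k3 : 0 ≤ A * (25 / 6 * nu x ^ 2 - (6 * Qd x + 2 * nu x ^ 2) * nu x * r x
      + A * r x ^ 2) := by
    have h8 : 0 ≤ (A * r x - (3 * Qd x + nu x ^ 2) * nu x) ^ 2 := sq_nonneg _
    have h9 : 0 ≤ (25 / 6 * A - (3 * Qd x + nu x ^ 2) ^ 2) * nu x ^ 2 :=
      mul_nonneg (by linarith) (sq_nonneg _)
    have e : A * (25 / 6 * nu x ^ 2 - (6 * Qd x + 2 * nu x ^ 2) * nu x * r x + A * r x ^ 2)
        = (A * r x - (3 * Qd x + nu x ^ 2) * nu x) ^ 2
          + (25 / 6 * A - (3 * Qd x + nu x ^ 2) ^ 2) * nu x ^ 2 := by ring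
    rw [e]
    linarith
  have k4 : 0 ≤ 25 / 6 * nu x ^ 2 - (6 * Qd x + 2 * nu x ^ 2) * nu x * r x + A * r x ^ 2 :=
    nonneg_of_mul_nonneg_right k3 hA0
  have h8 : nu x * th2 x ≤ nu x * (1 / 6 * nu x) := by
    rw [k1]
    nlinarith
  exact le_of_mul_le_mul_left h8 h5

end Vale.Agent.P254.SP448
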