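import Vale.Agent.P254.SP.IfaceA
import Vale.Agent.P254.H156.One

/-!
P254, line (SP_0): the structure `F1` of `SP/IfaceA.lean` determines its functions (helper448):
`P.t = H156.t`, `P.L = lm`, `P.L' = lm nu`, `P.r = r`, `P.r' = r1`, `P.r'' = r2`.
-/

set_option linter.all false

namespace Vale.Agent.P254.SP448

open Real Set Filter Topology MeasureTheory
open Vale.Agent.P254.H876 (ph Ph P1 lam m v)
open Vale.Agent.P254.H156 (t lm nu r r1 r2 Qs)
open Vale.Agent.P254.SP (F1)

theorem lm_mul_Qs (x : ℝ) : lm x * Qs x = Real.exp (-(1 / 2) * x ^ 2) / √(2 * π) := by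
  unfold H156.lm H156.Qs
  rw [← mul_div_assoc, H876.lam_mul_Ph]
  unfold H876.ph
  rw [neg_sq]

theorem tendsto_Qs_top : Tendsto Qs atTop (𝓝 0) := by
  have h := (H876.tendsto_Ph_bot.comp tendsto_neg_atTop_atBot).div_const (√(2 * π))
  rw [zero_div] at h
  exact h

variable (P : F1)

theorem exp_L (x : ℝ) : P.L x * Real.exp (-P.t x) = Real.exp (-(1 / 2) * x ^ 2) / √(2 * π) := by
  have h := P.log_L x
  have h1 : P.L x = Real.exp (Real.log (P.L x)) := (Real.exp_log (P.L_pos x)).symm
  have h2 : √(2 * π) = Real.exp (Real.log (2 * π) / 2) := by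
    rw [Real.sqrt_eq_rpow, Real.rpow_def_of_pos (by positivity)]
    congr 1
    ring
  rw [h1, h, h2, ← Real.exp_add, ← Real.exp_sub]
  congr 1
  ring

theorem exp_neg_t (x : ℝ) : Real.exp (-P.t x) = Qs x := by
  have hd : ∀ y, HasDerivAt (fun y => Real.exp (-P.t y) - Qs y) 0 y := by
    intro y
    have h := ((P.ht y).neg.exp).sub (H156.hasDerivAt_Qs y)
    refine h.congr_deriv ?_
    have h1 := exp_L P y
    have h2 := lm_mul_Qs y
    simp only [Pi.neg_apply]
    linarith
  have hconst : ∀ y, Real.exp (-P.t y) - Qs y = Real.exp (-P.t x) - Qs x := by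
    intro y
    exact is_const_of_deriv_eq_zero (fun z => (hd z).differentiableAt)
      (fun z => (hd z).deriv) y x
  set k := Real.exp (-P.t x) - Qs x with hk
  have h1 : k ≤ 0 := by
    have hlim : Tendsto (fun y => 1 - Qs y) atBot (𝓝 (1 - 1)) :=
      H156.tendsto_Qs_bot.const_sub 1
    rw [sub_self] at hlim
    refine ge_of_tendsto hlim (Eventually.of_forall fun y => ?_)
    rw [← hconst y]
    have : Real.exp (-P.t y) < 1 := Real.exp_lt_one_iff.2 (by have := P.t_pos y; linarith)
    linarith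
  have h2 : 0 ≤ k := by
    have hlim : Tendsto (fun y => -Qs y) atTop (𝓝 (-0)) := tendsto_Qs_top.neg
    rw [neg_zero] at hlim
    refine le_of_tendsto hlim (Eventually.of_forall fun y => ?_)
    rw [← hconst y]
    have := Real.exp_pos (-P.t y)
    linarith
  linarith

theorem F1.t_eq' (x : ℝ) : P.t x = t x := by
  unfold H156.t
  rw [← exp_neg_t P x, Real.log_exp]
  ring

theorem t_eq : P.t = t := funext (F1.t_eq' P)

theorem L_eq : P.L = lm := by
  funext x
  have h1 := P.ht x
  rw [t_eq P] at h1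
  exact h1.unique (H156.hasDerivAt_t x)

theorem L'_eq : P.L' = fun x => lm x * nu x := by
  funext x
  have h1 := P.hL x
  rw [L_eq P] at h1
  exact h1.unique (H156.hasDerivAt_lm x)

theorem r_eq : P.r = r := by
  funext x
  have h1 := P.r_eq x
  rw [L_eq P, t_eq P, ← H156.r_mul_lm x] at h1
  exact mul_right_cancel₀ (H156.lm_pos x).ne' h1

theorem r'_eq : P.r' = r1 := by
  funext x
  have h1 := P.hr x
  rw [r_eq P] at h1
  exact h1.unique (H156.hasDerivAt_r x)

theorem r''_eq : P.r'' = r2 := by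
  funext x
  have h1 := P.hr' x
  rw [r'_eq P] at h1
  exact h1.unique (H156.hasDerivAt_r1 x)

/-- `L' / L = nu` -/
theorem L'_div_L (x : ℝ) : P.L' x / P.L x = nu x := by
  rw [L'_eq P, L_eq P]
  have := (H156.lm_pos x).ne'
  field_simp

/-- the functions of two instances agree -/
theorem eq_of_F1 (P P' : F1) : P.t = P'.t ∧ P.L = P'.L ∧ P.L' = P'.L' ∧ P.r = P'.r ∧ P.r' = P'.r'
    ∧ P.r'' = P'.r'' := by
  simp [t_eq, L_eq, L'_eq, r_eq, r'_eq, r''_eq]

end Vale.Agent.P254.SP448
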