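import Vale.Agent.P254.H156.One

/-!
P254, line (SP_0): one-variable facts about `r = t / t'` (helper448).

`w = r' + r r''`, `θ = r (1 + r')`.  Main results: `r'' < (2/3) v` (`v = 1 - lm nu`), `w = r'² + r² v`,
`0 < w < 1/2`, `0 < θ' < 3/4`.
-/

set_option linter.all false

namespace Vale.Agent.P254.SP448

open Real Set Filter Topology MeasureTheory
open Vale.Agent.P254.H876 (ph Ph P1 lam m v)
open Vale.Agent.P254.H156 (t lm nu r r1 r2)

/-- `m² - v` -/
noncomputable def b (c : ℝ) : ℝ := m c ^ 2 - v c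

theorem b_pos (c : ℝ) : 0 < b c := H876.qv_pos c

theorem lam_m (c : ℝ) : lam c * m c = 1 - v c := by unfold v; ring

theorem m_sq (c : ℝ) : m c ^ 2 = b c + v c := by unfold b; ring

theorem hasDerivAt_b (c : ℝ) : HasDerivAt b (2 * m c * v c - lam c * b c) c := by
  have h := ((H876.hasDerivAt_m c).pow 2).sub (H876.hasDerivAt_v c)
  refine h.congr_deriv ?_
  unfold b
  simp only [Nat.cast_ofNat, Nat.reduceSub, pow_one]

theorem hasDerivAt_v' (c : ℝ) : HasDerivAt v (lam c * b c) c := H876.hasDerivAt_v c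

theorem bdd_facts {c : ℝ} (hc : c ≤ -1) :
    0 < m c ∧ m c < 1 ∧ 0 < v c ∧ v c < 1 ∧ 0 < b c ∧ b c < 1 := by
  have h1 := H876.m_pos c
  have h2 := H876.m_lt_one hc
  have h3 := H876.v_pos c
  have h4 := H876.v_lt_one c
  have h5 := b_pos c
  refine ⟨h1, h2, h3, h4, h5, ?_⟩
  have := m_sq c
  nlinarith

/-- (C) `2 v² - (1 - v)(m² - v) > 0` (third order inequality) -/
theorem C_pos (c : ℝ) : 0 < 2 * v c ^ 2 - (1 - v c) * b c := by
  have h := H156.P_pos (-c)
  have e : (1 - H156.lm (-c) * H156.nu (-c)) * (2 - H156.lm (-c) * H156.nu (-c))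
      - H156.nu (-c) ^ 2 * (H156.lm (-c) * H156.nu (-c)) = 2 * v c ^ 2 - (1 - v c) * b c := by
    unfold H156.lm H156.nu b v
    rw [neg_neg]
    ring
  rw [e] at h
  exact h

/-- (A) `m² - v > v²` -/
theorem A_pos (c : ℝ) : 0 < b c - v c ^ 2 := by
  have h : 0 < (b c - v c ^ 2) * Ph c := by
    refine H876.pos_of_deriv_pos (f := fun c => (b c - v c ^ 2) * Ph c)
      (f' := fun c => v c * (2 * m c - lam c * (2 * b c + v c)) * Ph c) (c := c) ?_ ?_ ?_
    · intro x _
      have h := ((hasDerivAt_b x).sub ((hasDerivAt_v' x).pow 2)).mul (H876.hasDerivAt_Ph x)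
      refine h.congr_deriv ?_
      rw [← H876.lam_mul_Ph]
      simp only [Nat.cast_ofNat, Nat.reduceSub, pow_one, Pi.sub_apply, Pi.pow_apply]
      ring
    · intro x _
      have h1 := H876.m_pos x
      have h2 := H876.v_pos x
      have h3 := b_pos x
      have h4 := lam_m x
      have h5 := m_sq x
      have h6 : 0 < m x * (2 * m x - lam x * (2 * b x + v x)) := by
        have : m x * (2 * m x - lam x * (2 * b x + v x))
            = 2 * m x ^ 2 - (lam x * m x) * (2 * b x + v x) := by ring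
        rw [this, h4, h5]
        have : 0 < v x * b x := mul_pos h2 h3
        nlinarith [mul_pos h2 h2]
      have h7 := (pos_iff_pos_of_mul_pos h6).1 h1
      exact mul_pos (mul_pos h2 h7) (H876.Ph_pos x)
    · refine H876.tendsto_bdd_mul_Ph (C := 1) fun c hc => ?_
      obtain ⟨h1, h2, h3, h4, h5, h6⟩ := bdd_facts hc
      rw [abs_le]
      constructor <;> nlinarith
  exact (pos_iff_pos_of_mul_pos h).2 (H876.Ph_pos c)

/-- the polynomial inequality behind (D) -/
theorem H_pos {V M B : ℝ} (hV : 0 < V) (hV1 : V < 1) (hM : 0 < M) (hB : M ^ 2 = B + V)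
    (hA : V ^ 2 < B) : 0 < 2 * V + 4 * V ^ 2 + (5 - 2 * V) * B - 6 * V * M := by
  have hμ0 : 0 < V + V ^ 2 := by positivity
  obtain ⟨μ, hμ, hμ2⟩ : ∃ μ : ℝ, 0 < μ ∧ μ ^ 2 = V + V ^ 2 :=
    ⟨√(V + V ^ 2), Real.sqrt_pos.2 hμ0, Real.sq_sqrt hμ0.le⟩
  have h1 : μ < M := by
    have : μ ^ 2 < M ^ 2 := by linarith
    exact lt_of_pow_lt_pow_left₀ 2 hM.le this
  have h2 : V < μ := by
    have : V ^ 2 < μ ^ 2 := by linarith
    exact lt_of_pow_lt_pow_left₀ 2 hμ.le this
  have h3 : 0 < (M - μ) * ((5 - 2 * V) * (M + μ) - 6 * V) := by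
    refine mul_pos (by linarith) ?_
    have : 3 * (M + μ) < (5 - 2 * V) * (M + μ) := by
      refine mul_lt_mul_of_pos_right (by linarith) (by linarith)
    linarith
  have h4 : 6 * μ < 2 + 9 * V - 2 * V ^ 2 := by
    have h5 : 0 < 2 + 9 * V - 2 * V ^ 2 := by nlinarith
    have h6 : (6 * μ) ^ 2 < (2 + 9 * V - 2 * V ^ 2) ^ 2 := by
      have : (6 * μ) ^ 2 = 36 * (V + V ^ 2) := by rw [mul_pow, hμ2]; norm_num
      rw [this]
      have h7 : V ^ 3 < V ^ 2 := by
        have := mul_lt_mul_of_pos_left hV1 (pow_pos hV 2)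
        nlinarith
      nlinarith [pow_pos hV 4, pow_pos hV 2]
    exact lt_of_pow_lt_pow_left₀ 2 h5.le h6
  have h5 : V * (6 * μ) < V * (2 + 9 * V - 2 * V ^ 2) := mul_lt_mul_of_pos_left h4 hV
  have e : 2 * V + 4 * V ^ 2 + (5 - 2 * V) * B - 6 * V * M
      = (M - μ) * ((5 - 2 * V) * (M + μ) - 6 * V)
        + ((5 - 2 * V) * μ ^ 2 - 6 * V * μ + 6 * V ^ 2 - 3 * V) := by
    have : B = M ^ 2 - V := by linarith
    rw [this]
    ring
  rw [e, hμ2]
  nlinarith

/-- the function of (D) -/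
noncomputable def E (c : ℝ) : ℝ :=
  2 / 3 * (m c * (4 * v c ^ 2 - b c + 2 * (v c * b c))) - (2 * v c ^ 2 - (1 - v c) * b c)

theorem hasDerivAt_EPh (c : ℝ) : HasDerivAt (fun c => E c * Ph c)
    ((2 / 3 * (2 * v c ^ 2 + 4 * v c ^ 3 + 5 * v c * b c - 2 * v c ^ 2 * b c
      + 2 * (1 - v c) * b c ^ 2) - lam c * b c * (b c + 2 * v c)) * Ph c) c := by
  have hs := (((((hasDerivAt_v' c).pow 2).const_mul 4).sub (hasDerivAt_b c)).add
    ((((hasDerivAt_v' c).mul (hasDerivAt_b c)).const_mul 2)))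
  have hD := ((((hasDerivAt_v' c).pow 2).const_mul 2).sub
    (((hasDerivAt_v' c).const_sub 1).mul (hasDerivAt_b c)))
  have h := ((((H876.hasDerivAt_m c).mul hs).const_mul (2 / 3)).sub hD).mul
    (H876.hasDerivAt_Ph c)
  refine h.congr_deriv ?_
  rw [← H876.lam_mul_Ph]
  simp only [Nat.cast_ofNat, Nat.reduceSub, pow_one, Pi.sub_apply, Pi.pow_apply, Pi.mul_apply,
    Pi.add_apply]
  have h1 := lam_m c
  have h2 := m_sq c
  linear_combination (Ph c) * (2 / 3 * (6 * v c * b c + b c + 2 * b c ^ 2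
      + (4 * v c ^ 2 - b c + 2 * (v c * b c))) - 2 * v c * m c) * h1
    + (Ph c) * (2 / 3 * (-2 * v c + 4 * v c ^ 2) + 2 * v c * lam c) * h2

/-- (D) -/
theorem E_pos (c : ℝ) : 0 < E c := by
  have h : 0 < E c * Ph c := by
    refine H876.pos_of_deriv_pos (f := fun c => E c * Ph c)
      (f' := fun c => (2 / 3 * (2 * v c ^ 2 + 4 * v c ^ 3 + 5 * v c * b c - 2 * v c ^ 2 * b c
      + 2 * (1 - v c) * b c ^ 2) - lam c * b c * (b c + 2 * v c)) * Ph c) (c := c)
      (fun x _ => hasDerivAt_EPh x) ?_ ?_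
    · intro x _
      refine mul_pos ?_ (H876.Ph_pos x)
      have h1 := H876.m_pos x
      have h2 := H876.v_pos x
      have h3 := b_pos x
      have h4 := lam_m x
      have h5 := m_sq x
      have h6 := C_pos x
      have h7 := A_pos x
      have h8 := H876.v_lt_one x
      have h9 := H_pos h2 h8 h1 h5 (by linarith)
      -- `lam b (b + 2 v) < 4 v² m`
      have k1 : m x * (lam x * b x) < 2 * v x ^ 2 := by
        have : m x * (lam x * b x) = (lam x * m x) * b x := by ring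
        rw [this, h4]
        linarith
      have k2 : b x + 2 * v x < 2 * m x ^ 2 := by rw [h5]; linarith
      have k3 : 0 < lam x * b x := mul_pos (H876.lam_pos x) h3
      have k4 : lam x * b x * (b x + 2 * v x) < lam x * b x * (2 * m x ^ 2) :=
        mul_lt_mul_of_pos_left k2 k3
      have k5 : lam x * b x * (2 * m x ^ 2) = 2 * m x * (m x * (lam x * b x)) := by ring
      have k6 : 2 * m x * (m x * (lam x * b x)) < 2 * m x * (2 * v x ^ 2) :=
        mul_lt_mul_of_pos_left k1 (by linarith)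
      have k7 : 0 < v x * (2 * v x + 4 * v x ^ 2 + (5 - 2 * v x) * b x - 6 * v x * m x) :=
        mul_pos h2 h9
      have k8 : 0 ≤ (1 - v x) * b x ^ 2 := mul_nonneg (by linarith) (sq_nonneg _)
      nlinarith
    · refine H876.tendsto_bdd_mul_Ph (C := 12) fun c hc => ?_
      obtain ⟨h1, h2, h3, h4, h5, h6⟩ := bdd_facts hc
      have k1 : 0 < v c * b c := mul_pos h3 h5
      have k2 : v c * b c < 1 := by nlinarith
      have k3 : 0 < v c ^ 2 := by positivity
      have k4 : v c ^ 2 < 1 := by nlinarith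
      have k5 : |4 * v c ^ 2 - b c + 2 * (v c * b c)| ≤ 6 := by
        rw [abs_le]
        constructor <;> linarith
      have k6 : |m c * (4 * v c ^ 2 - b c + 2 * (v c * b c))| ≤ 1 * 6 := by
        rw [abs_mul]
        refine mul_le_mul ?_ k5 (abs_nonneg _) (by norm_num)
        rw [abs_of_pos h1]
        exact h2.le
      rw [abs_le] at k6 ⊢
      unfold E
      constructor <;> nlinarith [k6.1, k6.2]
  exact (pos_iff_pos_of_mul_pos h).2 (H876.Ph_pos c)

/-! ### back to the variable `x = -c` -/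

/-- `V x = v (-x) = 1 - lm nu`, `Q x = nu² + V` -/
noncomputable def V (x : ℝ) : ℝ := v (-x)
noncomputable def Qd (x : ℝ) : ℝ := nu x ^ 2 + V x

theorem V_pos (x : ℝ) : 0 < V x := H876.v_pos _
theorem V_lt_one (x : ℝ) : V x < 1 := H876.v_lt_one _
theorem V_eq (x : ℝ) : V x = 1 - lm x * nu x := rfl
theorem Qd_pos (x : ℝ) : 0 < Qd x := by
  have := V_pos x
  unfold Qd
  positivity
theorem Qd_eq (x : ℝ) : Qd x = 1 - x * nu x := by
  unfold Qd
  rw [V_eq, H156.lm_eq]
  ring
theorem b_eq (x : ℝ) : b (-x) = nu x ^ 2 - V x := rfl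

/-- (A): `V² < nu² - V` -/
theorem V_sq_lt (x : ℝ) : V x ^ 2 < nu x ^ 2 - V x := by
  have h := A_pos (-x)
  rw [b_eq] at h
  unfold V at *
  linarith

theorem hasDerivAt_V (x : ℝ) : HasDerivAt V (-(lm x * (nu x ^ 2 - V x))) x := by
  have h := (H876.hasDerivAt_v (-x)).comp x (H156.hasDerivAt_neg' x)
  refine h.congr_deriv ?_
  unfold lm nu V
  ring

theorem hasDerivAt_nu (x : ℝ) : HasDerivAt nu (-V x) x := by
  refine (H156.hasDerivAt_nu x).congr_deriv ?_
  rw [V_eq]
  ring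

theorem r2_eq (x : ℝ) : r2 x = r x * Qd x - nu x := by
  rw [Qd_eq]
  rfl

/-- the comparison function of (Z) -/
theorem hasDerivAt_Z (x : ℝ) :
    HasDerivAt (fun x => lm x * (nu x + 2 / 3 * V x) / Qd x - t x)
      (lm x * E (-x) / Qd x ^ 2) x := by
  have hQ := (Qd_pos x).ne'
  have h1 := (H156.hasDerivAt_lm x).mul ((hasDerivAt_nu x).add ((hasDerivAt_V x).const_mul (2 / 3)))
  have h2 := ((hasDerivAt_nu x).pow 2).add (hasDerivAt_V x)
  have h := (h1.div h2 hQ).sub (H156.hasDerivAt_t x)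
  refine h.congr_deriv ?_
  simp only [Nat.cast_ofNat, Nat.reduceSub, pow_one, Pi.sub_apply, Pi.pow_apply, Pi.mul_apply,
    Pi.add_apply]
  have e1 : lm x * nu x = 1 - V x := by rw [V_eq]; ring
  have e2 : nu x ^ 2 + V x = Qd x := rfl
  have e3 : E (-x) = 2 / 3 * (nu x * (4 * V x ^ 2 - (nu x ^ 2 - V x)
      + 2 * (V x * (nu x ^ 2 - V x)))) - (2 * V x ^ 2 - (1 - V x) * (nu x ^ 2 - V x)) := rfl
  rw [e2, e3, div_sub' (pow_ne_zero 2 hQ), div_left_inj' (pow_ne_zero 2 hQ)]
  unfold Qd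
  generalize V x = W at *
  generalize lm x = L at *
  generalize nu x = N at *
  linear_combination (L * (N ^ 2 - W) * (1 - 2 / 3 * N)) * e1

theorem tendsto_Z : Tendsto (fun x => lm x * (nu x + 2 / 3 * V x) / Qd x - t x) atBot (𝓝 0) := by
  have h1 : Tendsto (fun x => lm x * (nu x + 2 / 3 * V x) / Qd x) atBot (𝓝 0) := by
    refine squeeze_zero' (Eventually.of_forall fun x => ?_) ?_ H156.tendsto_lm_bot
    · have h1 := H156.lm_pos x
      have h2 := H156.nu_pos x
      have h3 := V_pos x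
      have h4 := Qd_pos x
      positivity
    · filter_upwards [eventually_le_atBot (-1)] with x hx
      have h1 := H156.lm_pos x
      have h2 : 1 ≤ nu x := by rw [H156.nu_eq]; linarith
      have h3 := V_pos x
      have h4 := Qd_pos x
      rw [div_le_iff₀ h4]
      refine mul_le_mul_of_nonneg_left ?_ h1.le
      unfold Qd
      nlinarith
  simpa using h1.sub H156.tendsto_t_bot

/-- (Z) `t < lm (nu + (2/3) V) / Q` -/
theorem t_lt_Z (x : ℝ) : t x < lm x * (nu x + 2 / 3 * V x) / Qd x := by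
  have key : 0 < lm x * (nu x + 2 / 3 * V x) / Qd x - t x :=
    H876.pos_of_deriv_pos (f := fun x => lm x * (nu x + 2 / 3 * V x) / Qd x - t x)
      (f' := fun x => lm x * E (-x) / Qd x ^ 2) (c := x) (fun y _ => hasDerivAt_Z y)
      (fun y _ => div_pos (mul_pos (H156.lm_pos y) (E_pos _)) (pow_pos (Qd_pos y) 2)) tendsto_Z
  linarith

/-- `r'' < (2/3) V` -/
theorem r2_lt (x : ℝ) : r2 x < 2 / 3 * V x := by
  have h := t_lt_Z x
  rw [lt_div_iff₀ (Qd_pos x), ← H156.r_mul_lm x] at h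
  have h1 : lm x * (r x * Qd x) < lm x * (nu x + 2 / 3 * V x) := by linarith
  have h2 := lt_of_mul_lt_mul_left h1 (H156.lm_pos x).le
  rw [r2_eq]
  linarith

/-! ### `w = r' + r r''` -/

noncomputable def w (x : ℝ) : ℝ := r1 x + r x * r2 x
/-- `θ = r (1 + r')` -/
noncomputable def th (x : ℝ) : ℝ := r x * (1 + r1 x)
/-- `θ' = w + r'²` -/
noncomputable def th1 (x : ℝ) : ℝ := w x + r1 x ^ 2

theorem hasDerivAt_th (x : ℝ) : HasDerivAt th (th1 x) x := by
  have h := (H156.hasDerivAt_r x).mul ((H156.hasDerivAt_r1 x).const_add 1)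
  refine h.congr_deriv ?_
  unfold th1 w
  ring

/-- `(r r')' = w + r'² - r'` -/
theorem hasDerivAt_rr1 (x : ℝ) : HasDerivAt (fun x => r x * r1 x) (th1 x - r1 x) x := by
  have h := (H156.hasDerivAt_r x).mul (H156.hasDerivAt_r1 x)
  refine h.congr_deriv ?_
  unfold th1 w
  ring

theorem w_eq (x : ℝ) : w x = r1 x ^ 2 + r x ^ 2 * V x := by
  unfold w
  rw [r2_eq]
  unfold Qd r1
  ring

theorem w_eq' (x : ℝ) : w x * Qd x = V x + r2 x ^ 2 := by
  unfold w
  rw [r2_eq]
  unfold Qd r1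
  ring

theorem w_pos (x : ℝ) : 0 < w x := by
  have h1 := H156.r1_pos x
  have h2 := H156.r_pos x
  have h3 := H156.r2_pos x
  unfold w
  positivity

theorem w_lt_half (x : ℝ) : w x < 1 / 2 := by
  have h1 := w_eq' x
  have h2 := r2_lt x
  have h3 := H156.r2_pos x
  have h4 := V_sq_lt x
  have h5 := V_pos x
  have h6 := Qd_pos x
  have h7 : r2 x ^ 2 < (2 / 3 * V x) ^ 2 := by
    exact pow_lt_pow_left₀ h2 h3.le (by norm_num)
  have h8 : w x * Qd x < 1 / 2 * Qd x := by
    rw [h1]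
    unfold Qd
    nlinarith
  exact lt_of_mul_lt_mul_right h8 h6.le

theorem th1_pos (x : ℝ) : 0 < th1 x := by
  have := w_pos x
  unfold th1
  positivity

theorem th1_lt (x : ℝ) : th1 x < 3 / 4 := by
  have h1 := w_lt_half x
  have h2 := H156.r1_lt_half x
  have h3 := H156.r1_pos x
  unfold th1
  nlinarith

theorem abs_th1_sub_le (x : ℝ) : |th1 x - 3 / 8| ≤ 3 / 8 := by
  have h1 := th1_pos x
  have h2 := th1_lt x
  rw [abs_le]
  constructor <;> linarith

end Vale.Agent.P254.SP448
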