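import Vale.Agent.P254.SP.H151.Fam
import Vale.Agent.P254.SP.H958.Fin

/-!
P254, line (SP_0): the kernel `ktot` (helper448), part A: reduction to two derivative inequalities.

`K x y = (y - x) ktot x y`; `d/dy K x y = G y - G x + r''(y) (r'(y) (y-x) - 2 (r y - r x))`,
`G = (57/100) w - (93/100) r'²`.
-/

set_option linter.all false

namespace Vale.Agent.P254.SP448

open Real Set Filter Topology MeasureTheory
open Vale.Agent.P254.H156 (t lm nu r r1 r2)
open Vale.Agent.P254.SP (F1 dd wσ)
open Vale.Agent.P254.SP.H958 (Ar Sl)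

/-- `G = (57/100) w - (93/100) r'²` -/
noncomputable def Gf (x : ℝ) : ℝ := 57 / 100 * w x - 93 / 100 * r1 x ^ 2

/-- `G'` -/
noncomputable def g1 (x : ℝ) : ℝ := 57 / 100 * w1 x - 93 / 50 * (r1 x * r2 x)

theorem hasDerivAt_Gf (x : ℝ) : HasDerivAt Gf (g1 x) x := by
  have h := ((hasDerivAt_w x).const_mul (57 / 100)).sub (((H156.hasDerivAt_r1 x).pow 2).const_mul
    (93 / 100))
  refine h.congr_deriv ?_
  simp only [Nat.cast_ofNat, Nat.reduceSub, pow_one]
  unfold g1
  ring

/-- `log t'` -/
noncomputable def Lf (x : ℝ) : ℝ := Real.log (lm x)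

theorem hasDerivAt_Lf (x : ℝ) : HasDerivAt Lf (nu x) x := by
  have h := (H156.hasDerivAt_lm x).log (H156.lm_pos x).ne'
  refine h.congr_deriv ?_
  have := (H156.lm_pos x).ne'
  field_simp

noncomputable def Jf (x : ℝ) : ℝ := ∫ s in (0 : ℝ)..x, Lf s

theorem hasDerivAt_Jf (x : ℝ) : HasDerivAt Jf (Lf x) x := by
  have hc : Continuous Lf :=
    continuous_iff_continuousAt.2 fun s => (hasDerivAt_Lf s).continuousAt
  exact intervalIntegral.integral_hasDerivAt_right (hc.intervalIntegrable _ _)
    hc.aestronglyMeasurable.stronglyMeasurableAtFilter hc.continuousAt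

/-- `(y - x) ktot x y` -/
noncomputable def K (x y : ℝ) : ℝ :=
  (r y - r x - r1 x * (y - x)) + r x * (r1 y - r1 x - r2 x * (y - x))
    - r1 y * (r y - r x - r1 y * (y - x))
    - 43 / 100 * ((th y - th x) - th1 x * (y - x)) - 1 / 2 * ((y - x) * (r1 y ^ 2 - r1 x ^ 2))

/-- the derivative of `K x` -/
noncomputable def Kd (x y : ℝ) : ℝ :=
  Gf y - Gf x + r2 y * (r1 y * (y - x) - 2 * (r y - r x))

theorem hasDerivAt_K (x y : ℝ) : HasDerivAt (K x) (Kd x y) y := by
  have h1 := H156.hasDerivAt_r y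
  have h2 := H156.hasDerivAt_r1 y
  have h3 := hasDerivAt_th y
  have hi := (hasDerivAt_id y).sub_const x
  have a1 := (h1.sub_const (r x)).sub (hi.const_mul (r1 x))
  have a2 := ((h2.sub_const (r1 x)).sub (hi.const_mul (r2 x))).const_mul (r x)
  have a3 := h2.mul ((h1.sub_const (r x)).sub (h2.mul hi))
  have a4 := ((h3.sub_const (th x)).sub (hi.const_mul (th1 x))).const_mul (43 / 100)
  have a5 := (hi.mul ((h2.pow 2).sub_const (r1 x ^ 2))).const_mul (1 / 2)
  have h := (((a1.add a2).sub a3).sub a4).sub a5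
  refine h.congr_deriv ?_
  simp only [Nat.cast_ofNat, Nat.reduceSub, pow_one, Pi.sub_apply, Pi.pow_apply, Pi.mul_apply,
    Pi.add_apply, id]
  unfold Kd Gf th1 w
  ring

theorem K_self (x : ℝ) : K x x = 0 := by unfold K; ring

/-- the weight at the left point -/
theorem absL {k a b : ℝ} (hab : a ≤ b)
    (h : ∀ s, a ≤ s → s ≤ b → |Kd a s| ≤ k * (Lf s - Lf a)) :
    |K a b| ≤ k * Ar Lf Jf a b := by
  have key : ∀ ε : ℝ, (ε = 1 ∨ ε = -1) → ε * K a b ≤ k * Ar Lf Jf a b := by
    intro ε hε
    have hd : ∀ s, HasDerivAt (fun s => k * (Jf s - Jf a - Lf a * (s - a)) - ε * K a s)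
        (k * (Lf s - Lf a * 1) - ε * Kd a s) s := fun s =>
      ((((hasDerivAt_Jf s).sub_const (Jf a)).fun_sub
        (((hasDerivAt_id s).sub_const a).const_mul (Lf a))).const_mul k).fun_sub
        ((hasDerivAt_K a s).const_mul ε)
    have hm := monotoneOn_of_deriv_nonneg (convex_Icc a b)
      (fun y _ => (hd y).continuousAt.continuousWithinAt)
      (fun y _ => (hd y).differentiableAt.differentiableWithinAt)
      (fun y hy => by
        rw [(hd y).deriv]
        rw [interior_Icc] at hy
        have h1 := abs_le.1 (h y hy.1.le hy.2.le)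
        rcases hε with rfl | rfl
        · linarith [h1.2]
        · linarith [h1.1])
      (left_mem_Icc.2 hab) (right_mem_Icc.2 hab) hab
    simp only [K_self] at hm
    unfold Ar
    linarith
  rw [abs_le]
  have h1 := key 1 (Or.inl rfl)
  have h2 := key (-1) (Or.inr rfl)
  constructor <;> linarith

/-- the weight at the right point -/
theorem absR {k a b : ℝ} (hab : a ≤ b)
    (h : ∀ s, a ≤ s → s ≤ b → |Kd b s| ≤ k * (nu s * (b - s))) :
    |K b a| ≤ k * Ar Lf Jf a b := by
  have key : ∀ ε : ℝ, (ε = 1 ∨ ε = -1) → ε * K b a ≤ k * Ar Lf Jf a b := by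
    intro ε hε
    have hd : ∀ s, HasDerivAt (fun s => k * (Jf b - Jf s - Lf s * (b - s)) - ε * K b s)
        (k * (-Lf s - (nu s * (b - s) + Lf s * (-1))) - ε * Kd b s) s := fun s =>
      ((((hasDerivAt_Jf s).const_sub (Jf b)).fun_sub
        ((hasDerivAt_Lf s).fun_mul ((hasDerivAt_id s).const_sub b))).const_mul k).fun_sub
        ((hasDerivAt_K b s).const_mul ε)
    have hm := antitoneOn_of_deriv_nonpos (convex_Icc a b)
      (fun y _ => (hd y).continuousAt.continuousWithinAt)
      (fun y _ => (hd y).differentiableAt.differentiableWithinAt)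
      (fun y hy => by
        rw [(hd y).deriv]
        rw [interior_Icc] at hy
        have h1 := abs_le.1 (h y hy.1.le hy.2.le)
        rcases hε with rfl | rfl
        · linarith [h1.1]
        · linarith [h1.2])
      (left_mem_Icc.2 hab) (right_mem_Icc.2 hab) hab
    simp only [K_self] at hm
    unfold Ar
    linarith
  rw [abs_le]
  have h1 := key 1 (Or.inl rfl)
  have h2 := key (-1) (Or.inr rfl)
  constructor <;> linarith

/-- **assembly**: the two derivative inequalities give the kernel bound for every `P : F1` -/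
theorem ktot_of
    (hL : ∀ a b : ℝ, a ≤ b → |Kd a b| ≤ √(r1 a / 60) * (Lf b - Lf a))
    (hR : ∀ a b : ℝ, a ≤ b → |Kd b a| ≤ √(r1 b / 60) * (nu a * (b - a)))
    (P : F1) (x y : ℝ) :
    SP151.ktot P (43 / 100) (1 / 2) x y ^ 2 ≤ 1 / 20 * P.r' x * (wσ P x y - 1) := by
  by_cases h : x = y
  · subst h
    rw [SP.H958.wσ_self]
    simp [SP151.ktot, SP151.ck, dd]
  · have hx := H156.r1_pos x
    have hk : 3 * √(r1 x / 60) ^ 2 = 1 / 20 * r1 x := by
      rw [Real.sq_sqrt (by positivity)]
      ring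
    have hanti : Antitone nu := by
      have := SP.H958.nuP_anti P
      have e : SP.H958.nuP P = nu := funext fun z => SP.H958.nuP_nu P z
      rwa [e] at this
    have hT : ∀ z, HasDerivAt t (Real.exp (Lf z)) z := fun z => by
      unfold Lf
      rw [Real.exp_log (H156.lm_pos z)]
      exact H156.hasDerivAt_t z
    have main : Real.exp (Lf x + Lf y) * K x y ^ 2 ≤ 3 * √(r1 x / 60) ^ 2 * Sl Lf t x y := by
      rcases lt_or_gt_of_ne h with hxy | hxy
      · exact SP.H958.le_slack hasDerivAt_Lf hanti (fun z => (H156.nu_pos z).le) hT hasDerivAt_Jf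
          hxy (absL hxy.le fun s hs _ => hL x s hs)
      · rw [SP.H958.Sl_comm, add_comm (Lf x) (Lf y)]
        exact SP.H958.le_slack hasDerivAt_Lf hanti (fun z => (H156.nu_pos z).le) hT hasDerivAt_Jf
          hxy (absR hxy.le fun s _ hs => hR s x hs)
    rw [hk] at main
    have e1 : P.r' x = r1 x := congrFun (r'_eq P) x
    rw [e1]
    refine SP.H958.transfer P h (C := K x y) ?_ ?_
    · have h3 : x - y ≠ 0 := sub_ne_zero.2 h
      unfold K SP151.ktot SP151.ck dd SP38.th SP38.th1
      rw [if_neg h, if_neg h, if_neg h, r_eq P, r'_eq P, r''_eq P]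
      unfold th1 w th
      field_simp
      ring
    · rw [L_eq P, t_eq P]
      exact main

end Vale.Agent.P254.SP448
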