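import Vale.Agent.P254.SP.H448.KtA
import Vale.Agent.P254.H721.Env

/-!
P254, line (SP_0): the kernel `ktot` (helper448), part B: `r' nu²` is decreasing; one-variable facts.
-/

set_option linter.all false

namespace Vale.Agent.P254.SP448

open Real Set Filter Topology MeasureTheory
open Vale.Agent.P254.H156 (t lm nu r r1 r2)

/-! ### `r'' nu < 2 r' V` -/

/-- comparison function: `R = (nu² + 2V) / (nu (nu² + 3V))` -/
theorem hasDerivAt_Y (x : ℝ) :
    HasDerivAt (fun x => lm x * (nu x ^ 2 + 2 * V x) / (nu x * (nu x ^ 2 + 3 * V x)) - t x)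
      (lm x * ((1 - V x) * (nu x ^ 2 - V x) * nu x ^ 2 + 6 * V x ^ 3)
        / (nu x * (nu x ^ 2 + 3 * V x)) ^ 2) x := by
  have hn := H156.nu_pos x
  have hV := V_pos x
  have hD : nu x * (nu x ^ 2 + 3 * V x) ≠ 0 := by positivity
  have h1 := (H156.hasDerivAt_lm x).mul (((hasDerivAt_nu x).pow 2).add
    ((hasDerivAt_V x).const_mul 2))
  have h2 := (hasDerivAt_nu x).mul (((hasDerivAt_nu x).pow 2).add ((hasDerivAt_V x).const_mul 3))
  have h := (h1.div h2 hD).sub (H156.hasDerivAt_t x)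
  refine h.congr_deriv ?_
  simp only [Nat.cast_ofNat, Nat.reduceSub, pow_one, Pi.sub_apply, Pi.pow_apply, Pi.mul_apply,
    Pi.add_apply]
  have e1 : lm x * nu x = 1 - V x := by rw [V_eq]; ring
  rw [div_sub' (pow_ne_zero 2 hD), div_left_inj' (pow_ne_zero 2 hD)]
  generalize V x = W at *
  generalize lm x = L at *
  generalize nu x = N at *
  linear_combination (L * (N ^ 2 - W) * N ^ 2) * e1

theorem tendsto_Y : Tendsto (fun x => lm x * (nu x ^ 2 + 2 * V x) / (nu x * (nu x ^ 2 + 3 * V x))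
    - t x) atBot (𝓝 0) := by
  have h1 : Tendsto (fun x => lm x * (nu x ^ 2 + 2 * V x) / (nu x * (nu x ^ 2 + 3 * V x)))
      atBot (𝓝 0) := by
    refine squeeze_zero' (Eventually.of_forall fun x => ?_) ?_ H156.tendsto_lm_bot
    · have h1 := H156.lm_pos x
      have h2 := H156.nu_pos x
      have h3 := V_pos x
      positivity
    · filter_upwards [eventually_le_atBot (-1)] with x hx
      have h1 := H156.lm_pos x
      have h2 : 1 ≤ nu x := by rw [H156.nu_eq]; linarith
      have h3 := V_pos x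
      rw [div_le_iff₀ (by positivity)]
      refine mul_le_mul_of_nonneg_left ?_ h1.le
      nlinarith
  simpa using h1.sub H156.tendsto_t_bot

theorem t_lt_Y (x : ℝ) : t x < lm x * (nu x ^ 2 + 2 * V x) / (nu x * (nu x ^ 2 + 3 * V x)) := by
  have key : 0 < lm x * (nu x ^ 2 + 2 * V x) / (nu x * (nu x ^ 2 + 3 * V x)) - t x :=
    H876.pos_of_deriv_pos
      (f := fun x => lm x * (nu x ^ 2 + 2 * V x) / (nu x * (nu x ^ 2 + 3 * V x)) - t x)
      (f' := fun x => lm x * ((1 - V x) * (nu x ^ 2 - V x) * nu x ^ 2 + 6 * V x ^ 3)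
        / (nu x * (nu x ^ 2 + 3 * V x)) ^ 2) (c := x) (fun y _ => hasDerivAt_Y y)
      (fun y _ => by
        have hn := H156.nu_pos y
        have hV := V_pos y
        have hV1 := V_lt_one y
        have hb := b_pos (-y)
        rw [b_eq] at hb
        have h1 : 0 < (1 - V y) * (nu y ^ 2 - V y) := mul_pos (by linarith) hb
        have := H156.lm_pos y
        positivity) tendsto_Y
  linarith

/-- `V < r' (nu² + 3 V)` -/
theorem V_lt_S (x : ℝ) : V x < r1 x * (nu x ^ 2 + 3 * V x) := by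
  have h := t_lt_Y x
  have hn := H156.nu_pos x
  have hV := V_pos x
  rw [lt_div_iff₀ (by positivity), ← H156.r_mul_lm x] at h
  have h1 : lm x * (r x * (nu x * (nu x ^ 2 + 3 * V x))) < lm x * (nu x ^ 2 + 2 * V x) := by
    linarith
  have h2 := lt_of_mul_lt_mul_left h1 (H156.lm_pos x).le
  have e1 : r1 x = 1 - r x * nu x := rfl
  rw [e1]
  nlinarith

/-- `r'' nu < 2 r' V` -/
theorem rho_nu_lt (x : ℝ) : r2 x * nu x < 2 * r1 x * V x := by
  have h := V_lt_S x
  have e1 : r1 x = 1 - r x * nu x := rfl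
  rw [r2_eq]
  unfold Qd
  rw [e1] at h ⊢
  nlinarith

/-- `r' nu²` is decreasing -/
theorem Snu_anti : Antitone fun x => r1 x * nu x ^ 2 := by
  have hd : ∀ x, HasDerivAt (fun x => r1 x * nu x ^ 2)
      (r2 x * nu x ^ 2 + r1 x * (2 * nu x * -V x)) x := fun x => by
    have h := (H156.hasDerivAt_r1 x).mul ((hasDerivAt_nu x).pow 2)
    refine h.congr_deriv ?_
    simp only [Nat.cast_ofNat, Nat.reduceSub, pow_one, Pi.pow_apply]
  apply antitone_of_deriv_nonpos (fun x => (hd x).differentiableAt)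
  intro x
  rw [(hd x).deriv]
  have h1 := rho_nu_lt x
  have h2 := H156.nu_pos x
  nlinarith

end Vale.Agent.P254.SP448
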