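import Vale.Agent.P254.SP.H448.KtB

/-!
P254, line (SP_0): the kernel `ktot` (helper448), part C: one-variable inequalities
(helper721's certifier on `[-5, ..]`, envelopes on the tails).
-/

set_option linter.all false

namespace Vale.Agent.P254.SP448

open Real Set Filter Topology MeasureTheory
open Vale.Agent.P254.H156 (t lm nu r r1 r2)
open Vale.Agent.P254.H721.Cert

theorem br_r2 (x : ℝ) : H721.r2 x = r2 x := by
  rw [H721.r2_eq, r2_eq, add_comm (H721.vv x)]
  rfl
theorem br_r1 (x : ℝ) : H721.r1 x = r1 x := by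
  rw [H721.r1_eq]; rfl
theorem br_m (x : ℝ) : H721.mm x = nu x := rfl
theorem br_v (x : ℝ) : H721.vv x = V x := rfl
theorem br_L (x : ℝ) : H721.L x = lm x := rfl
theorem br_r (x : ℝ) : H721.r x = r x := rfl

/-! ### expressions -/

def eD2 : Pe := .c 2 1 * (eV * eV) - (.c 1 1 - eV) * (.m * .m - eV)
/-- `nu g1` -/
def eNG : Pe := .c 57 100 * (eD2 * (.r * .r) - .c 2 1 * (eR2 * eR2)) - .c 93 50 * (.m * (eR1 * eR2))
def eGf : Pe := .c 57 100 * (eR1 + .r * eR2) - .c 93 100 * (eR1 * eR1)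
def eCp : Pe := eNG + eV * (.c 637 5000 - eGf) + .c 111 5000 * (.m - .x * eV)
def eCm : Pe := eV * eGf + .c 111 5000 * (.m - .x * eV - .c 2 1 * eV) - eNG
def eCm1 : Pe := eCm - .c 1 100 * eV
def eX : Pe := .c 1 60 * (eR1 * ((.m * .m) * (.m * .m)))
def eSq (e : Pe) : Pe := eX - e * e

theorem nu_g1 (x : ℝ) : nu x * g1 x = 57 / 100 * ((2 * V x ^ 2 - (1 - V x) * (nu x ^ 2 - V x))
    * r x ^ 2 - 2 * r2 x ^ 2) - 93 / 50 * (nu x * (r1 x * r2 x)) := by
  have h := nu_mul_w1 x
  unfold g1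
  linear_combination (57 / 100) * h

theorem ev_eNG (ρ : ℕ → ℝ) (x : ℝ) : eNG.ev ρ x (H721.mm x) (H721.r x) = nu x * g1 x := by
  simp only [eNG, eD2, ev_sub, ev_add, ev_mul, ev_c, ev_m, ev_r, ev_eR2, ev_eR1, ev_eV]
  rw [nu_g1, br_r2, br_r1, br_m, br_v, br_r]
  push_cast
  ring

theorem ev_eGf (ρ : ℕ → ℝ) (x : ℝ) : eGf.ev ρ x (H721.mm x) (H721.r x) = Gf x := by
  simp only [eGf, ev_sub, ev_add, ev_mul, ev_c, ev_m, ev_r, ev_eR2, ev_eR1, ev_eV]
  rw [br_r2, br_r1, br_r]
  unfold Gf w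
  push_cast
  ring

/-! ### tails at `-∞` -/

theorem nu_ge5 {x : ℝ} (h : x ≤ -5) : 5 ≤ nu x := SP.H958.nu_ge h

theorem neg_x_le_nu (x : ℝ) : -x ≤ nu x := by
  have h1 := H156.nu_eq x
  have h2 := H156.lm_pos x
  linarith

theorem V_ge_left {x : ℝ} (h : x ≤ -5) : 99 / 100 ≤ V x := by
  have h1 := cert2 (e := eV - .c 99 100) envOK_nil 64 [(1, 1)] (by decide) (by decide +kernel)
    (x := -5) (by norm_num) (by norm_num [tot])
  simp only [ev_sub, ev_c, ev_eV] at h1
  push_cast at h1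
  have h2 := H721.vv_anti.antitone h
  rw [br_v, br_v] at h2
  rw [br_v] at h1
  linarith

theorem S_left {x : ℝ} (h : x ≤ -5) : r1 x * 26 ≤ 1 := by
  have := H721.r1_left h
  rwa [br_r1] at this

/-- `0 ≤ nu w' + 2 r''²`, `nu w' ≤ 2/25` on the left -/
theorem w1_left {x : ℝ} (h : x ≤ -5) : nu x * w1 x ≤ 2 / 25 := by
  have h2 := nu_ge5 h
  have h3 : r x * nu x < 1 := H156.r_nu_lt_one x
  have hk := nu_mul_w1 x
  have hb := b_pos (-x)
  rw [b_eq] at hb
  have hV0 := V_pos x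
  have hV1 := V_lt_one x
  have h0 : 0 < r x := H156.r_pos x
  have h4 : nu x * w1 x ≤ 2 * r x ^ 2 := by
    rw [hk]
    have : (2 * V x ^ 2 - (1 - V x) * (nu x ^ 2 - V x)) * r x ^ 2 ≤ 2 * r x ^ 2 := by
      refine mul_le_mul_of_nonneg_right ?_ (sq_nonneg _)
      have : 0 ≤ (1 - V x) * (nu x ^ 2 - V x) := mul_nonneg (by linarith) hb.le
      nlinarith
    linarith [sq_nonneg (r2 x)]
  have h5 : r x ≤ 1 / 5 := by nlinarith
  nlinarith

theorem w1_left' (x : ℝ) : -(2 * r2 x ^ 2) ≤ nu x * w1 x := by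
  have hk := nu_mul_w1 x
  have h2 := C_pos (-x)
  rw [b_eq] at h2
  have h7 : 0 ≤ (2 * V x ^ 2 - (1 - V x) * (nu x ^ 2 - V x)) * r x ^ 2 := by
    refine mul_nonneg ?_ (sq_nonneg _)
    unfold V at *
    exact h2.le
  linarith

/-- `r'' ≤ (2/5) r'` on the left -/
theorem rho_left {x : ℝ} (h : x ≤ -5) : r2 x ≤ 2 / 5 * r1 x := by
  have h1 := rho_nu_lt x
  have h2 := nu_ge5 h
  have h3 := H156.r2_pos x
  have h4 := V_lt_one x
  have h5 := H156.r1_pos x
  have h6 : r2 x * 5 ≤ r2 x * nu x := mul_le_mul_of_nonneg_left h2 h3.le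
  have h7 : 2 * r1 x * V x ≤ 2 * r1 x * 1 := mul_le_mul_of_nonneg_left h4.le (by linarith)
  linarith

/-- `nu² ≤ 68 r' nu⁴ / V .. `: `nu² ≤ 68 r' nu⁴` on the left -/
theorem S_nu4_left {x : ℝ} (h : x ≤ -5) : (3 / 25 * nu x) ^ 2 ≤ 1 / 60 * (r1 x * nu x ^ 4) := by
  have h1 := V_lt_S x
  have h2 := nu_ge5 h
  have h3 := V_ge_left h
  have h4 := V_lt_one x
  have h5 := H156.r1_pos x
  have h6 : 25 ≤ nu x ^ 2 := by nlinarith
  have h7 : r1 x * (nu x ^ 2 + 3 * V x) ≤ r1 x * (28 / 25 * nu x ^ 2) :=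
    mul_le_mul_of_nonneg_left (by linarith) h5.le
  have h8 : 99 / 100 ≤ r1 x * (28 / 25 * nu x ^ 2) := by linarith
  have h9 : 99 / 100 * nu x ^ 2 ≤ r1 x * (28 / 25 * nu x ^ 2) * nu x ^ 2 :=
    mul_le_mul_of_nonneg_right h8 (by positivity)
  nlinarith

/-! ### the inequalities on `x ≤ 0` -/

theorem f8 {x : ℝ} (hx : x ≤ 0) : 0 ≤ nu x - x * V x - 2 * V x := by
  rcases le_total x (-2) with h | h
  · have h1 := H156.nu_pos x
    have h2 := V_pos x
    nlinarith
  · have h1 := cert2 (e := .m - .x * eV - .c 2 1 * eV) envOK_nil 256 [(16, 6), (8, 4)]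
      (by decide) (by decide +kernel) (x := x) (by norm_num; linarith) (by norm_num [tot]; linarith)
    simp only [ev_sub, ev_mul, ev_x, ev_m, ev_c, ev_eV] at h1
    rw [br_m, br_v] at h1
    push_cast at h1
    linarith

theorem f9 {x : ℝ} (hx : x ≤ 0) : g1 x ≤ 1 / 5 * (r1 x * nu x) := by
  have hn := H156.nu_pos x
  suffices h : 0 ≤ 1 / 5 * (r1 x * nu x ^ 2) - nu x * g1 x by
    have : nu x * g1 x ≤ nu x * (1 / 5 * (r1 x * nu x)) := by linarith
    exact le_of_mul_le_mul_left this hn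
  rcases le_total x (-5) with h | h
  · have h1 := w1_left h
    have h2 := H156.r1_pos x
    have h3 := H156.r2_pos x
    have h4 := V_lt_S x
    have h5 := V_ge_left h
    have h6 := nu_ge5 h
    have h7 := V_lt_one x
    have h8 : 25 ≤ nu x ^ 2 := by nlinarith
    have h9 : r1 x * (nu x ^ 2 + 3 * V x) ≤ r1 x * (28 / 25 * nu x ^ 2) :=
      mul_le_mul_of_nonneg_left (by linarith) h2.le
    have h10 : nu x * g1 x ≤ 57 / 100 * (nu x * w1 x) := by
      unfold g1
      have : 0 < nu x * (r1 x * r2 x) := by positivity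
      linarith
    linarith
  · have h1 := cert2 (e := .c 1 5 * (eR1 * (.m * .m)) - eNG) envOK_nil 64 [(4, 80)]
      (by decide) (by decide +kernel) (x := x) (by norm_num; linarith) (by norm_num [tot]; linarith)
    simp only [ev_sub, ev_mul, ev_m, ev_c, ev_eR1, ev_eNG] at h1
    rw [br_m, br_r1] at h1
    push_cast at h1
    linarith

theorem f10 {x : ℝ} (hx : x ≤ 0) : -g1 x ≤ 1 / 100 * (r1 x * nu x) := by
  have hn := H156.nu_pos x
  rcases le_total x (-5) with h | h
  · have h1 := w1_left' x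
    have h2 := H156.r1_pos x
    have h3 := H156.r2_pos x
    have h4 := rho_left h
    have h5 := S_left h
    have h6 := nu_ge5 h
    have h7 : r2 x ≤ 1 / 65 := by linarith
    have h8 : r2 x * r2 x ≤ 2 / 5 * r1 x * (1 / 65) :=
      mul_le_mul h4 h7 h3.le (by positivity)
    have h9 : -w1 x ≤ 4 / 1625 * r1 x := by
      have : nu x * (-w1 x) ≤ nu x * (4 / 1625 * r1 x) := by
        have : 5 * (4 / 1625 * r1 x) ≤ nu x * (4 / 1625 * r1 x) :=
          mul_le_mul_of_nonneg_right h6 (by positivity)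
        nlinarith
      exact le_of_mul_le_mul_left this hn
    have h10 : r1 x * r2 x ≤ r1 x * (1 / 65) := mul_le_mul_of_nonneg_left h7 h2.le
    have h11 : r1 x * 5 ≤ r1 x * nu x := mul_le_mul_of_nonneg_left h6 h2.le
    unfold g1
    linarith
  · have h1 := cert2 (e := .c 1 100 * (eR1 * (.m * .m)) + eNG) envOK_nil 64
      [(2, 13), (4, 72), (2, 3)]
      (by decide) (by decide +kernel) (x := x) (by norm_num; linarith) (by norm_num [tot]; linarith)
    simp only [ev_sub, ev_add, ev_mul, ev_m, ev_c, ev_eR1, ev_eNG] at h1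
    rw [br_m, br_r1] at h1
    push_cast at h1
    have : nu x * (-g1 x) ≤ nu x * (1 / 100 * (r1 x * nu x)) := by linarith
    exact le_of_mul_le_mul_left this hn

theorem Gf_nonneg (x : ℝ) : 0 ≤ Gf x := by
  have h2 := H156.r1_pos x
  have h3 := H156.r2_pos x
  have h4 := H156.r_pos x
  have h5 := H156.r1_lt_half x
  have h6 : 0 < r x * r2 x := mul_pos h4 h3
  unfold Gf w
  nlinarith

theorem Gf_left {x : ℝ} (h : x ≤ -5) : Gf x ≤ 57 / 2000 := by
  have h1 := H721.wf_left h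
  unfold H721.wf at h1
  rw [br_r1, br_r2, br_r] at h1
  unfold Gf w
  nlinarith [sq_nonneg (r1 x)]

theorem ev_X (ρ : ℕ → ℝ) (x : ℝ) :
    eX.ev ρ x (H721.mm x) (H721.r x) = 1 / 60 * (r1 x * nu x ^ 4) := by
  simp only [eX, ev_mul, ev_c, ev_m, ev_eR1]
  rw [br_r1, br_m]
  push_cast
  ring

/-- from the square to the root -/
theorem le_of_sq {A x : ℝ} (h : A ^ 2 ≤ 1 / 60 * (r1 x * nu x ^ 4)) :
    A ≤ √(r1 x / 60) * nu x ^ 2 := by
  have h1 := H156.r1_pos x
  have h2 := H156.nu_pos x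
  have e : √(r1 x / 60) * nu x ^ 2 = √(1 / 60 * (r1 x * nu x ^ 4)) := by
    have : 1 / 60 * (r1 x * nu x ^ 4) = r1 x / 60 * (nu x ^ 2) ^ 2 := by ring
    rw [this, Real.sqrt_mul (by positivity), Real.sqrt_sq (by positivity)]
  rw [e]
  exact Real.le_sqrt_of_sq_le h

/-- (C+) -/
theorem Cplus {x : ℝ} (hx : x ≤ 0) :
    nu x * g1 x + V x * (637 / 5000 - Gf x) + 111 / 5000 * (nu x - x * V x)
      ≤ √(r1 x / 60) * nu x ^ 2 := by
  have hn := H156.nu_pos x
  rcases le_total x (-5) with h | h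
  · refine le_trans ?_ (le_of_sq (S_nu4_left h))
    have h1 := w1_left h
    have h2 := H156.r1_pos x
    have h3 := H156.r2_pos x
    have h5 := V_pos x
    have h6 := nu_ge5 h
    have h7 := V_lt_one x
    have h8 := Gf_nonneg x
    have h9 := neg_x_le_nu x
    have h10 : nu x * g1 x ≤ 57 / 100 * (nu x * w1 x) := by
      unfold g1
      have : 0 < nu x * (r1 x * r2 x) := by positivity
      linarith
    have h11 : V x * (637 / 5000 - Gf x) ≤ 637 / 5000 := by nlinarith
    have h12 : -x * V x ≤ nu x * 1 :=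
      mul_le_mul h9 h7.le h5.le hn.le
    linarith
  · apply le_of_sq
    have h1 := cert2 (e := eSq eCp) envOK_nil 64 [(4, 15), (2, 130)]
      (by decide) (by decide +kernel) (x := x) (by norm_num; linarith) (by norm_num [tot]; linarith)
    simp only [eSq, eCp, ev_sub, ev_add, ev_mul, ev_m, ev_x, ev_c, ev_eV, ev_eNG, ev_eGf,
      ev_X] at h1
    rw [br_m, br_v] at h1
    push_cast at h1
    linarith

/-- (C-) for `x ≤ 0`, with `1/100` for `-1 ≤ x` -/
theorem Cminus1 {x : ℝ} (hx : x ≤ 0) (hx' : -1 ≤ x) :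
    V x * Gf x + 111 / 5000 * (nu x - x * V x - 2 * V x) - nu x * g1 x - 1 / 100 * V x
      ≤ √(r1 x / 60) * nu x ^ 2 := by
  apply le_of_sq
  have h1 := cert2 (e := eSq eCm1) envOK_nil 320 [(2, 32)]
    (by decide) (by decide +kernel) (x := x) (by norm_num; linarith) (by norm_num [tot]; linarith)
  simp only [eSq, eCm1, eCm, ev_sub, ev_add, ev_mul, ev_m, ev_x, ev_c, ev_eV, ev_eNG, ev_eGf,
    ev_X] at h1
  rw [br_m, br_v] at h1
  push_cast at h1
  linarith

theorem Cminus {x : ℝ} (hx : x ≤ -1) :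
    V x * Gf x + 111 / 5000 * (nu x - x * V x - 2 * V x) - nu x * g1 x
      ≤ √(r1 x / 60) * nu x ^ 2 := by
  have hn := H156.nu_pos x
  rcases le_total x (-5) with h | h
  · refine le_trans ?_ (le_of_sq (S_nu4_left h))
    have h1 := f10 (show x ≤ 0 by linarith)
    have h2 := H156.r1_pos x
    have h5 := V_pos x
    have h6 := nu_ge5 h
    have h7 := V_lt_one x
    have h8 := Gf_nonneg x
    have h9 := neg_x_le_nu x
    have h10 := Gf_left h
    have h11 : V x * Gf x ≤ 1 * (57 / 2000) := mul_le_mul h7.le h10 h8 zero_le_one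
    have h12 : -x * V x ≤ nu x * 1 :=
      mul_le_mul h9 h7.le h5.le hn.le
    have h13 := rho_nu_lt x
    have h14 := S_left h
    have h15 : nu x * (-g1 x) ≤ nu x * (1 / 100 * (r1 x * nu x)) :=
      mul_le_mul_of_nonneg_left h1 hn.le
    have h16 := H721.r1_mul_sq_lt x
    rw [br_r1, br_m, br_v] at h16
    have h17 : V x * (1 - r1 x) ≤ 1 * 1 :=
      mul_le_mul h7.le (by linarith) (by linarith) zero_le_one
    nlinarith
  · apply le_of_sq
    have h1 := cert2 (e := eSq eCm) envOK_nil 64 [(4, 58), (2, 12)]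
      (by decide) (by decide +kernel) (x := x) (by norm_num; linarith) (by norm_num [tot]; linarith)
    simp only [eSq, eCm, ev_sub, ev_add, ev_mul, ev_m, ev_x, ev_c, ev_eV, ev_eNG, ev_eGf,
      ev_X] at h1
    rw [br_m, br_v] at h1
    push_cast at h1
    linarith

/-! ### the inequalities of the case `b ≥ 0` -/

theorem S_zero : 3 / 10 ≤ r1 0 := by
  have h1 := cert2 (e := eR1 - .c 3 10) envOK_nil 384 [(1, 1)]
    (by decide) (by decide +kernel) (x := 0) (by norm_num) (by norm_num [tot])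
  simp only [ev_sub, ev_c, ev_eR1] at h1
  rw [br_r1] at h1
  push_cast at h1
  linarith

theorem r1_le {x y : ℝ} (h : x ≤ y) : r1 x ≤ r1 y := by
  have := H721.r1_mono.monotone h
  rwa [br_r1, br_r1] at this

theorem i5 {x : ℝ} (hx : x ≤ 2) : 57 / 5000 + r2 x * (1 - r1 x) ≤ 912 / 10000 * nu x := by
  rcases le_total x (-5) with h | h
  · have h2 := H156.r1_pos x
    have h3 := H156.r2_pos x
    have h4 := rho_left h
    have h5 := S_left h
    have h6 := nu_ge5 h
    nlinarith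
  · have h1 := cert2 (e := .c 912 10000 * .m - .c 57 5000 - eR2 * (.c 1 1 - eR1)) envOK_nil 64
      [(8, 40), (4, 32)]
      (by decide) (by decide +kernel) (x := x) (by norm_num; linarith) (by norm_num [tot]; linarith)
    simp only [ev_sub, ev_mul, ev_m, ev_c, ev_eR1, ev_eR2] at h1
    rw [br_m, br_r1, br_r2] at h1
    push_cast at h1
    linarith

theorem i3 {x : ℝ} (hx : x ≤ 2) : 57 / 5000 + r2 x * (3 / 5 - r1 x) ≤ 707 / 10000 * nu x := by
  rcases le_total x (-5) with h | h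
  · have h2 := H156.r1_pos x
    have h3 := H156.r2_pos x
    have h4 := rho_left h
    have h5 := S_left h
    have h6 := nu_ge5 h
    nlinarith
  · have h1 := cert2 (e := .c 707 10000 * .m - .c 57 5000 - eR2 * (.c 3 5 - eR1)) envOK_nil 64
      [(8, 56)]
      (by decide) (by decide +kernel) (x := x) (by norm_num; linarith) (by norm_num [tot]; linarith)
    simp only [ev_sub, ev_mul, ev_m, ev_c, ev_eR1, ev_eR2] at h1
    rw [br_m, br_r1, br_r2] at h1
    push_cast at h1
    linarith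

theorem right_aux {x : ℝ} (h : 10 ≤ x) : r2 x ≤ 3 / 50 * nu x := by
  have h1 := H721.r2_le_right x
  have h2 := H721.r1_right (show (9 : ℝ) ≤ x by linarith)
  rw [br_r2, br_m, br_r1] at h1
  rw [br_r1] at h2
  have h3 := H156.nu_pos x
  nlinarith

theorem j5 {x : ℝ} (hx : 2 ≤ x) : r2 x * (1 - r1 x) ≤ 572 / 10000 * nu x := by
  rcases le_total x 10 with h | h
  · have h1 := cert2 (e := .c 572 10000 * .m - eR2 * (.c 1 1 - eR1)) envOK_nil 512
      [(4, 126), (2, 4)]
      (by decide) (by decide +kernel) (x := x) (by norm_num; linarith) (by norm_num [tot]; linarith)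
    simp only [ev_sub, ev_mul, ev_m, ev_c, ev_eR1, ev_eR2] at h1
    rw [br_m, br_r1, br_r2] at h1
    push_cast at h1
    linarith
  · have h1 := right_aux h
    have h2 := H721.r1_right (show (9 : ℝ) ≤ x by linarith)
    rw [br_r1] at h2
    have h3 := H156.nu_pos x
    have h4 := H156.r2_pos x
    nlinarith

theorem j3 {x : ℝ} (hx : 2 ≤ x) : r2 x * (3 / 5 - r1 x) ≤ 367 / 10000 * nu x := by
  rcases le_total x 10 with h | h
  · have h1 := cert2 (e := .c 367 10000 * .m - eR2 * (.c 3 5 - eR1)) envOK_nil 512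
      [(8, 33), (4, 62)]
      (by decide) (by decide +kernel) (x := x) (by norm_num; linarith) (by norm_num [tot]; linarith)
    simp only [ev_sub, ev_mul, ev_m, ev_c, ev_eR1, ev_eR2] at h1
    rw [br_m, br_r1, br_r2] at h1
    push_cast at h1
    linarith
  · have h1 := right_aux h
    have h2 := H721.r1_right (show (9 : ℝ) ≤ x by linarith)
    rw [br_r1] at h2
    have h3 := H156.nu_pos x
    have h4 := H156.r2_pos x
    nlinarith

end Vale.Agent.P254.SP448
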