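import Vale.Agent.P254.SP.H448.KtC

/-!
P254, line (SP_0): the kernel `ktot` (helper448), part D: the two derivative inequalities.
-/

set_option linter.all false

namespace Vale.Agent.P254.SP448

open Real Set Filter Topology MeasureTheory
open Vale.Agent.P254.H156 (t lm nu r r1 r2)

/-- the one-variable facts used below -/
structure Facts : Prop where
  f1 : ∀ x, g1 x ≤ 1 / 50 * nu x
  f2 : ∀ x, -g1 x ≤ 17 / 500 * nu x
  f3 : ∀ x, r1 x * r2 x ≤ 7 / 200 * nu x
  f4 : ∀ x, -g1 x ≤ 57 / 5000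
  f5 : ∀ x, r1 x * r2 x ≤ 111 / 5000
  f6 : ∀ x, Gf x + r1 x * r2 x * (x + 2) ≤ 859 / 5000
  f7 : ∀ x, 0 ≤ Gf x - r1 x * r2 x * (x + 2)
  f7' : ∀ x, -1 ≤ x → 1 / 100 ≤ Gf x - r1 x * r2 x * (x + 2)

theorem nu_anti {x y : ℝ} (h : x ≤ y) : nu y ≤ nu x := H721.mm_anti.antitone h

/-- integration of a derivative bound -/
theorem le_of_deriv {f f' : ℝ → ℝ} (hf : ∀ x, HasDerivAt f (f' x) x) {a b : ℝ} (hab : a ≤ b)
    (h : ∀ s, a < s → s < b → 0 ≤ f' s) : f a ≤ f b :=
  monotoneOn_of_deriv_nonneg (convex_Icc a b)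
    (fun y _ => (hf y).continuousAt.continuousWithinAt)
    (fun y _ => (hf y).differentiableAt.differentiableWithinAt)
    (fun y hy => by
      rw [(hf y).deriv]
      rw [interior_Icc] at hy
      exact h y hy.1 hy.2)
    (left_mem_Icc.2 hab) (right_mem_Icc.2 hab) hab

/-- `nu_b (b - a) ≤ L b - L a ≤ nu_a (b - a)` -/
theorem Lf_ge {a b : ℝ} (hab : a ≤ b) : nu b * (b - a) ≤ Lf b - Lf a := by
  have h := le_of_deriv (f := fun s => Lf s - nu b * s) (f' := fun s => nu s - nu b * 1)
    (fun s => (hasDerivAt_Lf s).sub ((hasDerivAt_id s).const_mul (nu b))) hab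
    (fun s _ hs => by have := nu_anti hs.le; linarith)
  linarith

theorem Lf_le {a b : ℝ} (hab : a ≤ b) : Lf b - Lf a ≤ nu a * (b - a) := by
  have h := le_of_deriv (f := fun s => nu a * s - Lf s) (f' := fun s => nu a * 1 - nu s)
    (fun s => ((hasDerivAt_id s).const_mul (nu a)).sub (hasDerivAt_Lf s)) hab
    (fun s hs _ => by have := nu_anti hs.le; linarith)
  linarith

theorem Lf_mono {a b : ℝ} (hab : a ≤ b) : 0 ≤ Lf b - Lf a := by
  have h := Lf_ge hab
  have h1 := H156.nu_pos b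
  have : 0 ≤ nu b * (b - a) := mul_nonneg h1.le (by linarith)
  linarith

/-- `r' a (b-a) ≤ r b - r a ≤ r' b (b-a)` -/
theorem r_ge {a b : ℝ} (hab : a ≤ b) : r1 a * (b - a) ≤ r b - r a := by
  have h := le_of_deriv (f := fun s => r s - r1 a * s) (f' := fun s => r1 s - r1 a * 1)
    (fun s => (H156.hasDerivAt_r s).sub ((hasDerivAt_id s).const_mul (r1 a))) hab
    (fun s hs _ => by have := r1_le hs.le; linarith)
  linarith

theorem r_le {a b : ℝ} (hab : a ≤ b) : r b - r a ≤ r1 b * (b - a) := by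
  have h := le_of_deriv (f := fun s => r1 b * s - r s) (f' := fun s => r1 b * 1 - r1 s)
    (fun s => ((hasDerivAt_id s).const_mul (r1 b)).sub (H156.hasDerivAt_r s)) hab
    (fun s _ hs => by have := r1_le hs.le; linarith)
  linarith

section
variable (F : Facts)
include F

/-- `G` against `L` -/
theorem G_le {a b : ℝ} (hab : a ≤ b) : Gf b - Gf a ≤ 1 / 50 * (Lf b - Lf a) := by
  have h := le_of_deriv (f := fun s => 1 / 50 * Lf s - Gf s) (f' := fun s => 1 / 50 * nu s - g1 s)
    (fun s => ((hasDerivAt_Lf s).const_mul (1 / 50)).sub (hasDerivAt_Gf s)) hab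
    (fun s _ _ => by have := F.f1 s; linarith)
  linarith

theorem G_ge {a b : ℝ} (hab : a ≤ b) : Gf a - Gf b ≤ 17 / 500 * (Lf b - Lf a) := by
  have h := le_of_deriv (f := fun s => 17 / 500 * Lf s + Gf s)
    (f' := fun s => 17 / 500 * nu s + g1 s)
    (fun s => ((hasDerivAt_Lf s).const_mul (17 / 500)).add (hasDerivAt_Gf s)) hab
    (fun s _ _ => by have := F.f2 s; linarith)
  linarith

theorem G_ge' {a b : ℝ} (hab : a ≤ b) : Gf a - Gf b ≤ 57 / 5000 * (b - a) := by
  have h := le_of_deriv (f := fun s => 57 / 5000 * s + Gf s) (f' := fun s => 57 / 5000 * 1 + g1 s)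
    (fun s => ((hasDerivAt_id s).const_mul (57 / 5000)).add (hasDerivAt_Gf s)) hab
    (fun s _ _ => by have := F.f4 s; linarith)
  linarith

theorem rho_L {a b : ℝ} (hab : a ≤ b) : r1 b * r2 b * (b - a) ≤ 7 / 200 * (Lf b - Lf a) := by
  have h1 := F.f3 b
  have h2 := Lf_ge hab
  have h3 : r1 b * r2 b * (b - a) ≤ 7 / 200 * nu b * (b - a) :=
    mul_le_mul_of_nonneg_right h1 (by linarith)
  linarith

/-- `U± ≤ k_a (L b - L a)` for `a ≥ 0` -/
theorem U_pos {a b : ℝ} (ha : 0 ≤ a) (hab : a ≤ b) :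
    (Gf b - Gf a) + r1 b * r2 b * (b - a) ≤ √(r1 a / 60) * (Lf b - Lf a) ∧
    (Gf a - Gf b) + r1 b * r2 b * (b - a) ≤ √(r1 a / 60) * (Lf b - Lf a) := by
  have h1 := G_le F hab
  have h2 := G_ge F hab
  have h3 := rho_L F hab
  have h4 := Lf_mono hab
  have h5 : 69 / 1000 ≤ √(r1 a / 60) := by
    apply Real.le_sqrt_of_sq_le
    have h6 := S_zero
    have h7 := r1_le ha
    linarith
  have h6 := mul_le_mul_of_nonneg_right h5 h4
  constructor <;> linarith

/-- `U± ≤ k_a (L b - L a)` for `a ≤ 0` -/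
theorem U_neg {ε : ℝ} (hε : ε = 1 ∨ ε = -1) {a b : ℝ} (ha : a ≤ 0) (hab : a ≤ b) :
    ε * (Gf b - Gf a) + r1 b * r2 b * (b - a) ≤ √(r1 a / 60) * (Lf b - Lf a) := by
  set k := √(r1 a / 60) with hk
  have hk0 : 0 ≤ k := Real.sqrt_nonneg _
  have hna := H156.nu_pos a
  set X := k * nu a with hX
  -- `X ≥ k_s nu_s`
  have hXs : ∀ s, a ≤ s → √(r1 s / 60) * nu s ≤ X := by
    intro s hs
    have h1 := Snu_anti hs
    simp only at h1
    have e : ∀ z, √(r1 z / 60) * nu z = √(r1 z * nu z ^ 2 / 60) := by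
      intro z
      have hz := H156.nu_pos z
      have hr := H156.r1_pos z
      have : r1 z * nu z ^ 2 / 60 = r1 z / 60 * (nu z) ^ 2 := by ring
      rw [this, Real.sqrt_mul (by positivity), Real.sqrt_sq hz.le]
    rw [hX, hk, e, e]
    exact Real.sqrt_le_sqrt (by linarith)
  set U : ℝ → ℝ := fun s => ε * (Gf b - Gf s) + r1 b * r2 b * (b - s) with hU
  have hdU : ∀ s, HasDerivAt U (ε * (-g1 s) + r1 b * r2 b * (-1)) s := fun s =>
    (((hasDerivAt_Gf s).const_sub (Gf b)).const_mul ε).add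
      (((hasDerivAt_id s).const_sub b).const_mul (r1 b * r2 b))
  have hdH : ∀ s, HasDerivAt (fun s => nu s * U s - X * (Lf b - Lf s))
      ((-V s * U s + nu s * (ε * (-g1 s) + r1 b * r2 b * (-1))) - X * (-nu s)) s := fun s =>
    ((hasDerivAt_nu s).fun_mul (hdU s)).fun_sub (((hasDerivAt_Lf s).const_sub (Lf b)).const_mul X)
  -- the sign of the derivative on `[a, min b 0]`
  have hsign : ∀ s, a < s → s < min b 0 →
      0 ≤ (-V s * U s + nu s * (ε * (-g1 s) + r1 b * r2 b * (-1))) - X * (-nu s) := by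
    intro s hs1 hs2
    have hs0 : s ≤ 0 := (hs2.trans_le (min_le_right _ _)).le
    have hsb : s ≤ b := (hs2.trans_le (min_le_left _ _)).le
    have hns := H156.nu_pos s
    have hVs := V_pos s
    have h1 : √(r1 s / 60) * nu s ^ 2 ≤ X * nu s := by
      have := mul_le_mul_of_nonneg_right (hXs s hs1.le) hns.le
      linarith
    have h8 := f8 hs0
    have h5 := F.f5 b
    have h9 : r1 b * r2 b * (nu s - s * V s - 2 * V s)
        ≤ 111 / 5000 * (nu s - s * V s - 2 * V s) := mul_le_mul_of_nonneg_right h5 h8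
    rcases hε with rfl | rfl
    · have h6 := mul_le_mul_of_nonneg_left (F.f6 b) hVs.le
      have h10 := Cplus hs0
      simp only [hU]
      linarith
    · rcases le_total s (-1) with h | h
      · have h7 := mul_le_mul_of_nonneg_left (F.f7 b) hVs.le
        have h10 := Cminus h
        simp only [hU]
        linarith
      · have h7 := mul_le_mul_of_nonneg_left (F.f7' b (by linarith)) hVs.le
        have h10 := Cminus1 hs0 h
        simp only [hU]
        linarith
  have hmain := le_of_deriv hdH (le_min hab ha) hsign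
  -- the end point
  have hend : nu (min b 0) * U (min b 0) - X * (Lf b - Lf (min b 0)) ≤ 0 := by
    rcases le_total b 0 with hb | hb
    · rw [min_eq_left hb]
      simp only [hU]
      linarith
    · rw [min_eq_right hb]
      have h1 := U_pos F le_rfl hb
      have h2 : U 0 ≤ √(r1 0 / 60) * (Lf b - Lf 0) := by
        simp only [hU]
        rcases hε with rfl | rfl
        · linarith [h1.1]
        · linarith [h1.2]
      have h3 := hXs 0 ha
      have h4 := Lf_mono hb
      have h5 := H156.nu_pos 0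
      have h6 := mul_le_mul_of_nonneg_left h2 h5.le
      have h7 := mul_le_mul_of_nonneg_right h3 h4
      linarith
  have hfin : nu a * U a ≤ nu a * (k * (Lf b - Lf a)) := by
    rw [hX] at hmain hend
    linarith
  have := le_of_mul_le_mul_left hfin hna
  simpa only [hU] using this

/-- **(L)** -/
theorem ineqL (a b : ℝ) (hab : a ≤ b) : |Kd a b| ≤ √(r1 a / 60) * (Lf b - Lf a) := by
  have h1 : (Gf b - Gf a) + r1 b * r2 b * (b - a) ≤ √(r1 a / 60) * (Lf b - Lf a) ∧
      (Gf a - Gf b) + r1 b * r2 b * (b - a) ≤ √(r1 a / 60) * (Lf b - Lf a) := by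
    rcases le_total a 0 with ha | ha
    · have e1 := U_neg F (ε := 1) (Or.inl rfl) ha hab
      have e2 := U_neg F (ε := -1) (Or.inr rfl) ha hab
      constructor <;> linarith
    · exact U_pos F ha hab
  have h2 := r_le hab
  have h3 := r_ge hab
  have h4 := H156.r2_pos b
  have h5 := H156.r1_pos a
  have h6 : 0 ≤ r1 a * (b - a) := mul_nonneg h5.le (by linarith)
  have h7 : 0 ≤ r2 b * (r b - r a) := mul_nonneg h4.le (by linarith)
  have h8 : r2 b * (r b - r a) ≤ r2 b * (r1 b * (b - a)) := mul_le_mul_of_nonneg_left h2 h4.le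
  unfold Kd
  rw [abs_le]
  constructor
  · linarith [h1.2]
  · linarith [h1.1]

theorem chord {S : ℝ} (h1 : 3 / 10 ≤ S) (h2 : S ≤ 1 / 2) :
    707 / 10000 + 41 / 400 * (S - 3 / 10) ≤ √(S / 60) := by
  apply Real.le_sqrt_of_sq_le
  nlinarith [mul_nonneg (sub_nonneg.2 h1) (sub_nonneg.2 h2)]

/-- **(R)** -/
theorem ineqR (a b : ℝ) (hab : a ≤ b) : |Kd b a| ≤ √(r1 b / 60) * (nu a * (b - a)) := by
  have h2 := r_le hab
  have h3 := r_ge hab
  have hd : 0 ≤ b - a := by linarith
  have hρ := H156.r2_pos a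
  have hn := H156.nu_pos a
  have hSa := H156.r1_pos a
  have hSb := H156.r1_pos b
  have hSab := r1_le hab
  have hSb2 := H156.r1_lt_half b
  -- the bracket
  have k1 : r2 a * (2 * (r b - r a) - r1 a * (b - a)) ≤ r2 a * ((2 * r1 b - r1 a) * (b - a)) :=
    mul_le_mul_of_nonneg_left (by linarith) hρ.le
  have k2 : 0 ≤ r2 a * (2 * (r b - r a) - r1 a * (b - a)) := by
    refine mul_nonneg hρ.le ?_
    have : 0 ≤ r1 a * (b - a) := mul_nonneg hSa.le hd
    linarith
  have e : Kd b a = Gf a - Gf b + r2 a * (2 * (r b - r a) - r1 a * (b - a)) := by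
    unfold Kd; ring
  rcases le_total b 0 with hb | hb
  · -- `b ≤ 0`
    have hS0 : r1 b ≤ 5 / 12 := by
      have h1 := r1_le hb
      have h4 : r1 0 ≤ 5 / 12 := by
        have h1 := H721.Cert.cert2 (e := .c 5 12 - H721.Cert.eR1) H721.Cert.envOK_nil 384 [(1, 1)]
          (by decide) (by decide +kernel) (x := 0) (by norm_num) (by norm_num [H721.Cert.tot])
        simp only [H721.Cert.ev_sub, H721.Cert.ev_c, H721.Cert.ev_eR1] at h1
        rw [br_r1] at h1
        push_cast at h1
        linarith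
      linarith
    have hk : 1 / 5 * r1 b ≤ √(r1 b / 60) := by
      apply Real.le_sqrt_of_sq_le
      nlinarith
    have hkk := mul_le_mul_of_nonneg_right hk (mul_nonneg hn.le hd)
    have hmono : ∀ s, a < s → s < b → r1 s * nu s ≤ r1 b * nu a := fun s hs1 hs2 =>
      mul_le_mul (r1_le hs2.le) (nu_anti hs1.le) (H156.nu_pos s).le hSb.le
    have g2 : Gf a - Gf b ≤ 1 / 100 * (r1 b * nu a) * (b - a) := by
      have h := le_of_deriv (f := fun s => 1 / 100 * (r1 b * nu a) * s + Gf s)
        (f' := fun s => 1 / 100 * (r1 b * nu a) * 1 + g1 s)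
        (fun s => ((hasDerivAt_id s).const_mul _).add (hasDerivAt_Gf s)) hab
        (fun s hs1 hs2 => by
          have h1 := f10 (show s ≤ 0 by linarith)
          have h2 := hmono s hs1 hs2
          linarith)
      linarith
    have g3 : Gf b - Gf a ≤ 1 / 5 * (r1 b * nu a) * (b - a) := by
      have h := le_of_deriv (f := fun s => 1 / 5 * (r1 b * nu a) * s - Gf s)
        (f' := fun s => 1 / 5 * (r1 b * nu a) * 1 - g1 s)
        (fun s => ((hasDerivAt_id s).const_mul _).sub (hasDerivAt_Gf s)) hab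
        (fun s hs1 hs2 => by
          have h1 := f9 (show s ≤ 0 by linarith)
          have h2 := hmono s hs1 hs2
          linarith)
      linarith
    have g4 : r2 a * ((2 * r1 b - r1 a) * (b - a)) ≤ 47 / 250 * (r1 b * nu a) * (b - a) := by
      have h1 := SP.H958.r2_le_nu a
      have h4 : r2 a * (2 * r1 b - r1 a) ≤ 47 / 500 * nu a * (2 * r1 b) :=
        mul_le_mul h1 (by linarith) (by linarith) (by positivity)
      have h5 := mul_le_mul_of_nonneg_right h4 hd
      linarith
    rw [e, abs_le]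
    constructor <;> nlinarith
  · -- `b ≥ 0`
    have hS3 : 3 / 10 ≤ r1 b := S_zero.trans (r1_le hb)
    have hch := chord F hS3 hSb2.le
    have hkk := mul_le_mul_of_nonneg_right hch (mul_nonneg hn.le hd)
    -- lower bound
    have l1 : Gf b - Gf a ≤ 1 / 50 * (nu a * (b - a)) := by
      have h1 := G_le F hab
      have h4 := Lf_le hab
      linarith
    have l2 : 0 ≤ nu a * (b - a) := mul_nonneg hn.le hd
    have l3 : 0 ≤ (r1 b - 3 / 10) * (nu a * (b - a)) := mul_nonneg (by linarith) l2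
    -- upper bound: `μ + r2 a (2 S - r1 a) ≤ nu a * chord`
    obtain ⟨μ, hμ, hμ5, hμ3⟩ : ∃ μ : ℝ, Gf a - Gf b ≤ μ * (b - a) ∧
        μ + r2 a * (1 - r1 a) ≤ 912 / 10000 * nu a ∧
        μ + r2 a * (3 / 5 - r1 a) ≤ 707 / 10000 * nu a := by
      rcases le_total a 2 with h | h
      · exact ⟨57 / 5000, G_ge' F hab, i5 h, i3 h⟩
      · refine ⟨17 / 500 * nu a, ?_, ?_, ?_⟩
        · have h1 := G_ge F hab
          have h4 := Lf_le hab
          linarith
        · have := j5 h
          linarith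
        · have := j3 h
          linarith
    have hlin : μ + r2 a * (2 * r1 b - r1 a) ≤
        (707 / 10000 + 41 / 400 * (r1 b - 3 / 10)) * nu a := by
      have p1 : (1 / 2 - r1 b) * (μ + r2 a * (3 / 5 - r1 a)) ≤
          (1 / 2 - r1 b) * (707 / 10000 * nu a) :=
        mul_le_mul_of_nonneg_left hμ3 (by linarith)
      have p2 : (r1 b - 3 / 10) * (μ + r2 a * (1 - r1 a)) ≤
          (r1 b - 3 / 10) * (912 / 10000 * nu a) :=
        mul_le_mul_of_nonneg_left hμ5 (by linarith)
      linarith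
    have hlin2 := mul_le_mul_of_nonneg_right hlin hd
    rw [e, abs_le]
    constructor
    · nlinarith
    · nlinarith

end

/-- **the kernel `ktot`** -/
theorem ktot_facts (F : Facts) (P : SP.F1) (x y : ℝ) :
    SP151.ktot P (43 / 100) (1 / 2) x y ^ 2 ≤ 1 / 20 * P.r' x * (SP.wσ P x y - 1) :=
  ktot_of (ineqL F) (ineqR F) P x y

end Vale.Agent.P254.SP448
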