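import Vale.Agent.P254.SP.H448.KtD

/-!
P254, line (SP_0): the kernel `ktot` (helper448), part E: unconditional for `x ≤ 0`.
-/

set_option linter.all false

namespace Vale.Agent.P254.SP448

open Real Set Filter Topology MeasureTheory
open Vale.Agent.P254.H156 (t lm nu r r1 r2)
open Vale.Agent.P254.H721.Cert

def eCp' : Pe := eNG + eV * (.c 658 5000 - eGf) + .c 111 5000 * (.m - .x * eV)

/-- (C+) with `176/1000` -/
theorem Cplus' {x : ℝ} (hx : x ≤ 0) :
    nu x * g1 x + V x * (658 / 5000 - Gf x) + 111 / 5000 * (nu x - x * V x)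
      ≤ √(r1 x / 60) * nu x ^ 2 := by
  have hn := H156.nu_pos x
  rcases le_total x (-5) with h | h
  · refine le_trans ?_ (le_of_sq (S_nu4_left h))
    have h1 := w1_left h
    have h2 := H156.r1_pos x
    have h3 := H156.r2_pos x
    have h5 := V_pos x
    have h6 := nu_ge5 h
    have h7 := V_lt_one x
    have h8 := Gf_nonneg x
    have h9 := neg_x_le_nu x
    have h10 : nu x * g1 x ≤ 57 / 100 * (nu x * w1 x) := by
      unfold g1
      have : 0 < nu x * (r1 x * r2 x) := by positivity
      linarith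
    have h11 : V x * (658 / 5000 - Gf x) ≤ 658 / 5000 := by nlinarith
    have h12 : -x * V x ≤ nu x * 1 :=
      mul_le_mul h9 h7.le h5.le hn.le
    linarith
  · apply le_of_sq
    have h1 := cert2 (e := eSq eCp') envOK_nil 64 [(4, 14), (2, 66), (1, 22), (2, 55)]
      (by decide) (by decide +kernel) (x := x) (by norm_num; linarith) (by norm_num [tot]; linarith)
    simp only [eSq, eCp', ev_sub, ev_add, ev_mul, ev_m, ev_x, ev_c, ev_eV, ev_eNG, ev_eGf,
      ev_X] at h1
    rw [br_m, br_v] at h1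
    push_cast at h1
    linarith

/-! ### facts for all `x` -/

theorem left_facts {x : ℝ} (h : x ≤ -5) : r1 x * r2 x ≤ 1 / 1690 ∧ 0 ≤ -(r1 x * r2 x * (x + 2)) := by
  have h2 := H156.r1_pos x
  have h3 := H156.r2_pos x
  have h4 := rho_left h
  have h5 := S_left h
  constructor
  · nlinarith
  · have : 0 < r1 x * r2 x := mul_pos h2 h3
    nlinarith

theorem right_facts {x : ℝ} (h : 9 ≤ x) : 479 / 1000 ≤ r1 x ∧
    r1 x * r2 x * (x + 2) ≤ 26 / 1000 ∧ r1 x * r2 x ≤ 3 / 1000 := by
  have h1 := H721.r2_le_right x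
  have h2 := H721.r1_right h
  rw [br_r2, br_m, br_r1] at h1
  rw [br_r1] at h2
  have h3 := H156.nu_pos x
  have h4 := SP.H958.x_nu_lt x
  have h5 := H156.r1_lt_half x
  have h6 := H156.r2_pos x
  have h7 : nu x ≤ 1 / 9 := by nlinarith
  have h8 : r2 x ≤ 42 / 1000 * nu x := by nlinarith
  have h9 : r1 x * r2 x ≤ 21 / 1000 * nu x := by nlinarith
  refine ⟨h2, ?_, by linarith⟩
  have h10 : r1 x * r2 x * (x + 2) ≤ 21 / 1000 * nu x * (x + 2) :=
    mul_le_mul_of_nonneg_right h9 (by linarith)
  nlinarith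

theorem k5 (x : ℝ) : r1 x * r2 x ≤ 111 / 5000 := by
  rcases le_total x (-5) with h | h
  · linarith [(left_facts h).1]
  · rcases le_total x 9 with h' | h'
    · have h1 := cert2 (e := .c 111 5000 - eR1 * eR2) envOK_nil 64
        [(4, 69), (2, 24), (4, 15), (8, 56), (4, 16)]
        (by decide) (by decide +kernel) (x := x) (by norm_num; linarith)
        (by norm_num [tot]; linarith)
      simp only [ev_sub, ev_mul, ev_c, ev_eR1, ev_eR2] at h1
      rw [br_r1, br_r2] at h1
      push_cast at h1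
      linarith
    · linarith [(right_facts h').2.2]

theorem k6 (x : ℝ) : Gf x + r1 x * r2 x * (x + 2) ≤ 176 / 1000 := by
  rcases le_total x (-5) with h | h
  · linarith [(left_facts h).2, Gf_left h]
  · rcases le_total x 9 with h' | h'
    · have h1 := cert2 (e := .c 176 1000 - eGf - eR1 * eR2 * (.x + .c 2 1)) envOK_nil 64
        [(8, 34), (4, 156)]
        (by decide) (by decide +kernel) (x := x) (by norm_num; linarith)
        (by norm_num [tot]; linarith)
      simp only [ev_sub, ev_add, ev_mul, ev_c, ev_x, ev_eGf, ev_eR1, ev_eR2] at h1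
      rw [br_r1, br_r2] at h1
      push_cast at h1
      linarith
    · obtain ⟨h1, h2, h3⟩ := right_facts h'
      have h4 := w_lt_half x
      unfold Gf
      nlinarith

theorem k7' {x : ℝ} (hx : -1 ≤ x) : 1 / 100 ≤ Gf x - r1 x * r2 x * (x + 2) := by
  rcases le_total x 9 with h' | h'
  · have h1 := cert2 (e := eGf - eR1 * eR2 * (.x + .c 2 1) - .c 1 100) envOK_nil 320
      [(8, 27), (4, 90), (2, 32)]
      (by decide) (by decide +kernel) (x := x) (by norm_num; linarith)
      (by norm_num [tot]; linarith)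
    simp only [ev_sub, ev_add, ev_mul, ev_c, ev_x, ev_eGf, ev_eR1, ev_eR2] at h1
    rw [br_r1, br_r2] at h1
    push_cast at h1
    linarith
  · obtain ⟨h1, h2, h3⟩ := right_facts h'
    have h4 := H156.r1_lt_half x
    have h5 := mul_pos (H156.r_pos x) (H156.r2_pos x)
    unfold Gf w
    nlinarith

theorem k7 (x : ℝ) : 0 ≤ Gf x - r1 x * r2 x * (x + 2) := by
  rcases le_total (-1) x with h | h
  · linarith [k7' h]
  · rcases le_total x (-5) with h' | h'
    · linarith [(left_facts h').2, Gf_nonneg x]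
    · have h1 := cert2 (e := eGf - eR1 * eR2 * (.x + .c 2 1)) envOK_nil 64
        [(4, 32), (8, 16)]
        (by decide) (by decide +kernel) (x := x) (by norm_num; linarith)
        (by norm_num [tot]; linarith)
      simp only [ev_sub, ev_add, ev_mul, ev_c, ev_x, ev_eGf, ev_eR1, ev_eR2] at h1
      rw [br_r1, br_r2] at h1
      push_cast at h1
      linarith

theorem k7'' {x : ℝ} (hx : 11 / 4 ≤ x) (h' : x ≤ 9) :
    45 / 1000 ≤ Gf x - r1 x * r2 x * (x + 2) := by
  have h1 := cert2 (e := eGf - eR1 * eR2 * (.x + .c 2 1) - .c 45 1000) envOK_nil 560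
    [(4, 6), (2, 137), (1, 102)]
    (by decide) (by decide +kernel) (x := x) (by norm_num; linarith)
    (by norm_num [tot]; linarith)
  simp only [ev_sub, ev_add, ev_mul, ev_c, ev_x, ev_eGf, ev_eR1, ev_eR2] at h1
  rw [br_r1, br_r2] at h1
  push_cast at h1
  linarith

/-! ### facts on `[0, 11/4]` -/

theorem p3 {x : ℝ} (hx : 0 ≤ x) (h' : x ≤ 11 / 4) : r1 x * r2 x ≤ 358 / 10000 * nu x := by
  have h1 := cert2 (e := .c 358 10000 * .m - eR1 * eR2) envOK_nil 384
    [(4, 44)]
    (by decide) (by decide +kernel) (x := x) (by norm_num; linarith)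
    (by norm_num [tot]; linarith)
  simp only [ev_sub, ev_mul, ev_m, ev_c, ev_eR1, ev_eR2] at h1
  rw [br_r1, br_r2, br_m] at h1
  push_cast at h1
  linarith

theorem p2 {x : ℝ} (hx : 0 ≤ x) (h' : x ≤ 11 / 4) : -g1 x ≤ 355 / 10000 * nu x := by
  have hn := H156.nu_pos x
  have h1 := cert2 (e := .c 355 10000 * (.m * .m) + eNG) envOK_nil 384
    [(4, 21), (2, 31), (1, 30)]
    (by decide) (by decide +kernel) (x := x) (by norm_num; linarith)
    (by norm_num [tot]; linarith)
  simp only [ev_sub, ev_add, ev_mul, ev_m, ev_c, ev_eNG] at h1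
  rw [br_m] at h1
  push_cast at h1
  have : nu x * (-g1 x) ≤ nu x * (355 / 10000 * nu x) := by linarith
  exact le_of_mul_le_mul_left this hn

theorem p1 {x : ℝ} (hx : 0 ≤ x) (h' : x ≤ 11 / 4) : g1 x ≤ 355 / 10000 * nu x := by
  have hn := H156.nu_pos x
  have h1 := cert2 (e := .c 355 10000 * (.m * .m) - eNG) envOK_nil 384
    [(4, 44)]
    (by decide) (by decide +kernel) (x := x) (by norm_num; linarith)
    (by norm_num [tot]; linarith)
  simp only [ev_sub, ev_add, ev_mul, ev_m, ev_c, ev_eNG] at h1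
  rw [br_m] at h1
  push_cast at h1
  have : nu x * g1 x ≤ nu x * (355 / 10000 * nu x) := by linarith
  exact le_of_mul_le_mul_left this hn

theorem nu_vals : 525 / 1000 ≤ nu 1 ∧ 373 / 1000 ≤ nu 2 ∧ 300 / 1000 ≤ nu (11 / 4) ∧
    108 / 1000 ≤ nu 9 := by
  refine ⟨?_, ?_, ?_, ?_⟩
  · have h1 := cert2 (e := .m - .c 525 1000) envOK_nil 447 [(1, 1)]
      (by decide) (by decide +kernel) (x := 1) (by norm_num) (by norm_num [tot])
    simp only [ev_sub, ev_m, ev_c] at h1
    rw [br_m] at h1
    push_cast at h1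
    linarith
  · have h1 := cert2 (e := .m - .c 373 1000) envOK_nil 511 [(1, 1)]
      (by decide) (by decide +kernel) (x := 2) (by norm_num) (by norm_num [tot])
    simp only [ev_sub, ev_m, ev_c] at h1
    rw [br_m] at h1
    push_cast at h1
    linarith
  · have h1 := cert2 (e := .m - .c 300 1000) envOK_nil 559 [(1, 1)]
      (by decide) (by decide +kernel) (x := 11 / 4) (by norm_num) (by norm_num [tot])
    simp only [ev_sub, ev_m, ev_c] at h1
    rw [br_m] at h1
    push_cast at h1
    linarith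
  · have h1 := cert2 (e := .m - .c 108 1000) envOK_nil 959 [(1, 1)]
      (by decide) (by decide +kernel) (x := 9) (by norm_num) (by norm_num [tot])
    simp only [ev_sub, ev_m, ev_c] at h1
    rw [br_m] at h1
    push_cast at h1
    linarith

theorem S0' : 3051 / 10000 ≤ r1 0 := by
  have h1 := cert2 (e := eR1 - .c 3051 10000) envOK_nil 384 [(1, 1)]
    (by decide) (by decide +kernel) (x := 0) (by norm_num) (by norm_num [tot])
  simp only [ev_sub, ev_c, ev_eR1] at h1
  rw [br_r1] at h1
  push_cast at h1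
  linarith

theorem G0 : 12 / 100 ≤ Gf 0 ∧ Gf 0 ≤ 1228 / 10000 := by
  constructor
  · have h1 := cert2 (e := eGf - .c 12 100) envOK_nil 384 [(1, 1)]
      (by decide) (by decide +kernel) (x := 0) (by norm_num) (by norm_num [tot])
    simp only [ev_sub, ev_c, ev_eGf] at h1
    push_cast at h1
    linarith
  · have h1 := cert2 (e := .c 1228 10000 - eGf) envOK_nil 384 [(1, 1)]
      (by decide) (by decide +kernel) (x := 0) (by norm_num) (by norm_num [tot])
    simp only [ev_sub, ev_c, ev_eGf] at h1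
    push_cast at h1
    linarith

/-- the end point `a = 0` -/
theorem U_zero {b : ℝ} (hb : 0 ≤ b) :
    (Gf b - Gf 0) + r1 b * r2 b * (b - 0) ≤ √(r1 0 / 60) * (Lf b - Lf 0) ∧
    (Gf 0 - Gf b) + r1 b * r2 b * (b - 0) ≤ √(r1 0 / 60) * (Lf b - Lf 0) := by
  have h5 : 713 / 10000 ≤ √(r1 0 / 60) := by
    apply Real.le_sqrt_of_sq_le
    have h6 := S0'
    linarith
  have hL := Lf_mono hb
  have hkk := mul_le_mul_of_nonneg_right h5 hL
  obtain ⟨n1, n2, n3, n4⟩ := nu_vals
  obtain ⟨G1, G2⟩ := G0
  have hSr : 0 < r1 b * r2 b := mul_pos (H156.r1_pos b) (H156.r2_pos b)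
  rcases le_total b (11 / 4) with h | h
  · have e1 : Gf b - Gf 0 ≤ 355 / 10000 * (Lf b - Lf 0) := by
      have h := le_of_deriv (f := fun s => 355 / 10000 * Lf s - Gf s)
        (f' := fun s => 355 / 10000 * nu s - g1 s)
        (fun s => ((hasDerivAt_Lf s).const_mul _).sub (hasDerivAt_Gf s)) hb
        (fun s hs1 hs2 => by have := p1 hs1.le (hs2.le.trans h); linarith)
      linarith
    have e2 : Gf 0 - Gf b ≤ 355 / 10000 * (Lf b - Lf 0) := by
      have h := le_of_deriv (f := fun s => 355 / 10000 * Lf s + Gf s)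
        (f' := fun s => 355 / 10000 * nu s + g1 s)
        (fun s => ((hasDerivAt_Lf s).const_mul _).add (hasDerivAt_Gf s)) hb
        (fun s hs1 hs2 => by have := p2 hs1.le (hs2.le.trans h); linarith)
      linarith
    have e3 : r1 b * r2 b * (b - 0) ≤ 358 / 10000 * (Lf b - Lf 0) := by
      have h1 := p3 hb h
      have h2 := Lf_ge hb
      have h3 : r1 b * r2 b * (b - 0) ≤ 358 / 10000 * nu b * (b - 0) :=
        mul_le_mul_of_nonneg_right h1 (by linarith)
      linarith
    constructor <;> linarith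
  · have c1 := Lf_ge (show (0 : ℝ) ≤ 1 by norm_num)
    have c2 := Lf_ge (show (1 : ℝ) ≤ 2 by norm_num)
    have c3 := Lf_ge (show (2 : ℝ) ≤ 11 / 4 by norm_num)
    have c4 := Lf_mono h
    have hk6 := k6 b
    constructor
    · linarith
    · rcases le_total b 9 with h' | h'
      · have := k7'' h h'
        linarith
      · have c5 := Lf_ge (show (11 / 4 : ℝ) ≤ 9 by norm_num)
        have c6 := Lf_mono h'
        have := k7' (show -1 ≤ b by linarith)
        linarith

/-- `U± ≤ k_a (L b - L a)` for `a ≤ 0` -/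
theorem U_neg' {ε : ℝ} (hε : ε = 1 ∨ ε = -1) {a b : ℝ} (ha : a ≤ 0) (hab : a ≤ b) :
    ε * (Gf b - Gf a) + r1 b * r2 b * (b - a) ≤ √(r1 a / 60) * (Lf b - Lf a) := by
  set k := √(r1 a / 60) with hk
  have hk0 : 0 ≤ k := Real.sqrt_nonneg _
  have hna := H156.nu_pos a
  set X := k * nu a with hX
  have hXs : ∀ s, a ≤ s → √(r1 s / 60) * nu s ≤ X := by
    intro s hs
    have h1 := Snu_anti hs
    simp only at h1
    have e : ∀ z, √(r1 z / 60) * nu z = √(r1 z * nu z ^ 2 / 60) := by
      intro z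
      have hz := H156.nu_pos z
      have hr := H156.r1_pos z
      have : r1 z * nu z ^ 2 / 60 = r1 z / 60 * (nu z) ^ 2 := by ring
      rw [this, Real.sqrt_mul (by positivity), Real.sqrt_sq hz.le]
    rw [hX, hk, e, e]
    exact Real.sqrt_le_sqrt (by linarith)
  set U : ℝ → ℝ := fun s => ε * (Gf b - Gf s) + r1 b * r2 b * (b - s) with hU
  have hdU : ∀ s, HasDerivAt U (ε * (-g1 s) + r1 b * r2 b * (-1)) s := fun s =>
    (((hasDerivAt_Gf s).const_sub (Gf b)).const_mul ε).add
      (((hasDerivAt_id s).const_sub b).const_mul (r1 b * r2 b))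
  have hdH : ∀ s, HasDerivAt (fun s => nu s * U s - X * (Lf b - Lf s))
      ((-V s * U s + nu s * (ε * (-g1 s) + r1 b * r2 b * (-1))) - X * (-nu s)) s := fun s =>
    ((hasDerivAt_nu s).fun_mul (hdU s)).fun_sub (((hasDerivAt_Lf s).const_sub (Lf b)).const_mul X)
  have hsign : ∀ s, a < s → s < min b 0 →
      0 ≤ (-V s * U s + nu s * (ε * (-g1 s) + r1 b * r2 b * (-1))) - X * (-nu s) := by
    intro s hs1 hs2
    have hs0 : s ≤ 0 := (hs2.trans_le (min_le_right _ _)).le
    have hsb : s ≤ b := (hs2.trans_le (min_le_left _ _)).le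
    have hns := H156.nu_pos s
    have hVs := V_pos s
    have h1 : √(r1 s / 60) * nu s ^ 2 ≤ X * nu s := by
      have := mul_le_mul_of_nonneg_right (hXs s hs1.le) hns.le
      linarith
    have h8 := f8 hs0
    have h5 := k5 b
    have h9 : r1 b * r2 b * (nu s - s * V s - 2 * V s)
        ≤ 111 / 5000 * (nu s - s * V s - 2 * V s) := mul_le_mul_of_nonneg_right h5 h8
    rcases hε with rfl | rfl
    · have h6 := mul_le_mul_of_nonneg_left (k6 b) hVs.le
      have h10 := Cplus' hs0
      simp only [hU]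
      linarith
    · rcases le_total s (-1) with h | h
      · have h7 := mul_le_mul_of_nonneg_left (k7 b) hVs.le
        have h10 := Cminus h
        simp only [hU]
        linarith
      · have h7 := mul_le_mul_of_nonneg_left (k7' (show -1 ≤ b by linarith)) hVs.le
        have h10 := Cminus1 hs0 h
        simp only [hU]
        linarith
  have hmain := le_of_deriv hdH (le_min hab ha) hsign
  have hend : nu (min b 0) * U (min b 0) - X * (Lf b - Lf (min b 0)) ≤ 0 := by
    rcases le_total b 0 with hb | hb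
    · rw [min_eq_left hb]
      simp only [hU]
      linarith
    · rw [min_eq_right hb]
      have h1 := U_zero hb
      have h2 : U 0 ≤ √(r1 0 / 60) * (Lf b - Lf 0) := by
        simp only [hU]
        rcases hε with rfl | rfl
        · linarith [h1.1]
        · linarith [h1.2]
      have h3 := hXs 0 ha
      have h4 := Lf_mono hb
      have h5 := H156.nu_pos 0
      have h6 := mul_le_mul_of_nonneg_left h2 h5.le
      have h7 := mul_le_mul_of_nonneg_right h3 h4
      linarith
  have hfin : nu a * U a ≤ nu a * (k * (Lf b - Lf a)) := by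
    rw [hX] at hmain hend
    linarith
  have := le_of_mul_le_mul_left hfin hna
  simpa only [hU] using this

/-- **(L)**, `a ≤ 0` -/
theorem ineqL_neg {a b : ℝ} (ha : a ≤ 0) (hab : a ≤ b) :
    |Kd a b| ≤ √(r1 a / 60) * (Lf b - Lf a) := by
  have e1 := U_neg' (ε := 1) (Or.inl rfl) ha hab
  have e2 := U_neg' (ε := -1) (Or.inr rfl) ha hab
  have h2 := r_le hab
  have h3 := r_ge hab
  have h4 := H156.r2_pos b
  have h5 := H156.r1_pos a
  have h6 : 0 ≤ r1 a * (b - a) := mul_nonneg h5.le (by linarith)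
  have h7 : 0 ≤ r2 b * (r b - r a) := mul_nonneg h4.le (by linarith)
  have h8 : r2 b * (r b - r a) ≤ r2 b * (r1 b * (b - a)) := mul_le_mul_of_nonneg_left h2 h4.le
  unfold Kd
  rw [abs_le]
  constructor <;> linarith

/-- **(R)**, `b ≤ 0` -/
theorem ineqR_neg {a b : ℝ} (hb : b ≤ 0) (hab : a ≤ b) :
    |Kd b a| ≤ √(r1 b / 60) * (nu a * (b - a)) := by
  have h2 := r_le hab
  have h3 := r_ge hab
  have hd : 0 ≤ b - a := by linarith
  have hρ := H156.r2_pos a
  have hn := H156.nu_pos a
  have hSa := H156.r1_pos a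
  have hSb := H156.r1_pos b
  have hSab := r1_le hab
  have k1 : r2 a * (2 * (r b - r a) - r1 a * (b - a)) ≤ r2 a * ((2 * r1 b - r1 a) * (b - a)) :=
    mul_le_mul_of_nonneg_left (by linarith) hρ.le
  have k2 : 0 ≤ r2 a * (2 * (r b - r a) - r1 a * (b - a)) := by
    refine mul_nonneg hρ.le ?_
    have : 0 ≤ r1 a * (b - a) := mul_nonneg hSa.le hd
    linarith
  have e : Kd b a = Gf a - Gf b + r2 a * (2 * (r b - r a) - r1 a * (b - a)) := by
    unfold Kd; ring
  have hS0 : r1 b ≤ 5 / 12 := by
    have h1 := r1_le hb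
    have h4 : r1 0 ≤ 5 / 12 := by
      have h1 := cert2 (e := .c 5 12 - eR1) envOK_nil 384 [(1, 1)]
        (by decide) (by decide +kernel) (x := 0) (by norm_num) (by norm_num [tot])
      simp only [ev_sub, ev_c, ev_eR1] at h1
      rw [br_r1] at h1
      push_cast at h1
      linarith
    linarith
  have hk : 1 / 5 * r1 b ≤ √(r1 b / 60) := by
    apply Real.le_sqrt_of_sq_le
    nlinarith
  have hkk := mul_le_mul_of_nonneg_right hk (mul_nonneg hn.le hd)
  have hmono : ∀ s, a < s → s < b → r1 s * nu s ≤ r1 b * nu a := fun s hs1 hs2 =>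
    mul_le_mul (r1_le hs2.le) (nu_anti hs1.le) (H156.nu_pos s).le hSb.le
  have g2 : Gf a - Gf b ≤ 1 / 100 * (r1 b * nu a) * (b - a) := by
    have h := le_of_deriv (f := fun s => 1 / 100 * (r1 b * nu a) * s + Gf s)
      (f' := fun s => 1 / 100 * (r1 b * nu a) * 1 + g1 s)
      (fun s => ((hasDerivAt_id s).const_mul _).add (hasDerivAt_Gf s)) hab
      (fun s hs1 hs2 => by
        have h1 := f10 (show s ≤ 0 by linarith)
        have h2 := hmono s hs1 hs2
        linarith)
    linarith
  have g3 : Gf b - Gf a ≤ 1 / 5 * (r1 b * nu a) * (b - a) := by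
    have h := le_of_deriv (f := fun s => 1 / 5 * (r1 b * nu a) * s - Gf s)
      (f' := fun s => 1 / 5 * (r1 b * nu a) * 1 - g1 s)
      (fun s => ((hasDerivAt_id s).const_mul _).sub (hasDerivAt_Gf s)) hab
      (fun s hs1 hs2 => by
        have h1 := f9 (show s ≤ 0 by linarith)
        have h2 := hmono s hs1 hs2
        linarith)
    linarith
  have g4 : r2 a * ((2 * r1 b - r1 a) * (b - a)) ≤ 47 / 250 * (r1 b * nu a) * (b - a) := by
    have h1 := SP.H958.r2_le_nu a
    have h4 : r2 a * (2 * r1 b - r1 a) ≤ 47 / 500 * nu a * (2 * r1 b) :=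
      mul_le_mul h1 (by linarith) (by linarith) (by positivity)
    have h5 := mul_le_mul_of_nonneg_right h4 hd
    linarith
  rw [e, abs_le]
  constructor <;> nlinarith

/-- **the kernel `ktot` for `x ≤ 0`** -/
theorem ktot_neg (P : SP.F1) {x : ℝ} (hx : x ≤ 0) (y : ℝ) :
    SP151.ktot P (43 / 100) (1 / 2) x y ^ 2 ≤ 1 / 20 * P.r' x * (SP.wσ P x y - 1) := by
  by_cases h : x = y
  · subst h
    rw [SP.H958.wσ_self]
    simp [SP151.ktot, SP151.ck, SP.dd]
  · have hx1 := H156.r1_pos x
    have hk : 3 * √(r1 x / 60) ^ 2 = 1 / 20 * r1 x := by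
      rw [Real.sq_sqrt (by positivity)]
      ring
    have hanti : Antitone nu := fun _ _ h => nu_anti h
    have hT : ∀ z, HasDerivAt t (Real.exp (Lf z)) z := fun z => by
      unfold Lf
      rw [Real.exp_log (H156.lm_pos z)]
      exact H156.hasDerivAt_t z
    have main : Real.exp (Lf x + Lf y) * K x y ^ 2 ≤
        3 * √(r1 x / 60) ^ 2 * SP.H958.Sl Lf t x y := by
      rcases lt_or_gt_of_ne h with hxy | hxy
      · exact SP.H958.le_slack hasDerivAt_Lf hanti (fun z => (H156.nu_pos z).le) hT hasDerivAt_Jf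
          hxy (absL hxy.le fun s hs _ => ineqL_neg hx hs)
      · rw [SP.H958.Sl_comm, add_comm (Lf x) (Lf y)]
        exact SP.H958.le_slack hasDerivAt_Lf hanti (fun z => (H156.nu_pos z).le) hT hasDerivAt_Jf
          hxy (absR hxy.le fun s _ hs => ineqR_neg hx hs)
    rw [hk] at main
    have e1 : P.r' x = r1 x := congrFun (r'_eq P) x
    rw [e1]
    refine SP.H958.transfer P h (C := K x y) ?_ ?_
    · have h3 : x - y ≠ 0 := sub_ne_zero.2 h
      unfold K SP151.ktot SP151.ck SP.dd SP38.th SP38.th1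
      rw [if_neg h, if_neg h, if_neg h, r_eq P, r'_eq P, r''_eq P]
      unfold th1 w th
      field_simp
      ring
    · rw [L_eq P, t_eq P]
      exact main

end Vale.Agent.P254.SP448
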