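import Vale.Agent.P254.SP.H448.W1

/-!
P254, line (SP_0): `w' ≤ (39/400) nu` (helper448), `w = r' + r r''` (true supremum of `w'/nu`: 0.0915).
-/

set_option linter.all false

namespace Vale.Agent.P254.SP448

open Real Set Filter Topology MeasureTheory
open Vale.Agent.P254.H876 (ph Ph P1 lam m v)
open Vale.Agent.P254.H156 (t lm nu r r1 r2)

/-- (W'): `4 Q² ≤ (839/400) (2 n² + 3 n V + V² + b)`, `n = b + V`, `Q = b + 2 V` -/
theorem W_planar' (c : ℝ) :
    0 ≤ 839 * b c + 78 * b c ^ 2 + (-527) * (b c * v c) + (-1366) * v c ^ 2 := by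
  refine poly_nonneg _ _ _ _ (fun B W hB hW hW1 h => ?_) c
  have e : 839 * (2 * W * (B + W)) + 78 * (4 * B * W * (B + W) - (1 - W) * B ^ 2)
        + (-527) * (2 * W ^ 2 * (B + W) + (1 - W) * B ^ 2)
        + (-1366) * ((1 - W) * W * (2 * B + W))
      = (917 * W - 605) * B ^ 2 + (1990 * W - 1054) * W * B + 312 * W ^ 2 * (1 + W) := by ring
  rw [e]
  have h1 : B * (839 - 527 * W) < 1366 * W ^ 2 := by nlinarith [sq_nonneg B]
  have hd : 0 < 839 - 527 * W := by linarith
  have h2 : 0 < B * (839 - 527 * W) := mul_pos hB hd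
  have h3 : (B * (839 - 527 * W)) ^ 2 ≤ (1366 * W ^ 2) ^ 2 := pow_le_pow_left₀ h2.le h1.le 2
  have hd2 : 0 < (839 - 527 * W) ^ 2 := by positivity
  have hW2 : 0 < W ^ 2 := by positivity
  suffices hs : 0 ≤ ((917 * W - 605) * B ^ 2 + (1990 * W - 1054) * W * B
      + 312 * W ^ 2 * (1 + W)) * (839 - 527 * W) ^ 2 from nonneg_of_mul_nonneg_left hs hd2
  have e2 : ((917 * W - 605) * B ^ 2 + (1990 * W - 1054) * W * B
      + 312 * W ^ 2 * (1 + W)) * (839 - 527 * W) ^ 2
      = (917 * W - 605) * (B * (839 - 527 * W)) ^ 2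
        + (1990 * W - 1054) * W * (B * (839 - 527 * W)) * (839 - 527 * W)
        + 312 * W ^ 2 * (1 + W) * (839 - 527 * W) ^ 2 := by ring
  rw [e2]
  by_cases hc : W ≤ 527 / 995
  · have k1 : (917 * W - 605) * (1366 * W ^ 2) ^ 2
        ≤ (917 * W - 605) * (B * (839 - 527 * W)) ^ 2 :=
      mul_le_mul_of_nonpos_left h3 (by linarith)
    have k2 : (1990 * W - 1054) * (W * (839 - 527 * W)) * (1366 * W ^ 2)
        ≤ (1990 * W - 1054) * (W * (839 - 527 * W)) * (B * (839 - 527 * W)) :=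
      mul_le_mul_of_nonpos_left h1.le
        (mul_nonpos_of_nonpos_of_nonneg (by linarith) (mul_pos hW hd).le)
    have k3 : 0 ≤ W ^ 2 * (365167920 * W ^ 3 + 1721287484 * W ^ 2 - 1264242116 * W
        + 219623352) := by
      refine mul_nonneg hW2.le ?_
      have a1 : 0 ≤ (W + 2 / 3) * (W - 1 / 3) ^ 2 := mul_nonneg (by linarith) (sq_nonneg _)
      nlinarith [sq_nonneg (W - 332 / 1000)]
    have e3 : W ^ 2 * (365167920 * W ^ 3 + 1721287484 * W ^ 2 - 1264242116 * W + 219623352)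
        = (917 * W - 605) * (1366 * W ^ 2) ^ 2
          + (1990 * W - 1054) * (W * (839 - 527 * W)) * (1366 * W ^ 2)
          + 312 * W ^ 2 * (1 + W) * (839 - 527 * W) ^ 2 := by ring
    have e4 : (1990 * W - 1054) * W * (B * (839 - 527 * W)) * (839 - 527 * W)
        = (1990 * W - 1054) * (W * (839 - 527 * W)) * (B * (839 - 527 * W)) := by ring
    rw [e4]
    rw [e3] at k3
    linarith
  · push Not at hc
    have k4 : 0 ≤ (1990 * W - 1054) * W * (B * (839 - 527 * W)) * (839 - 527 * W) :=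
      mul_nonneg (mul_nonneg (mul_nonneg (by linarith) hW.le) h2.le) hd.le
    have k5 : 0 < 312 * W ^ 2 * (1 + W) * (839 - 527 * W) ^ 2 := by positivity
    by_cases hc2 : 0 ≤ 917 * W - 605
    · have k6 : 0 ≤ (917 * W - 605) * (B * (839 - 527 * W)) ^ 2 :=
        mul_nonneg hc2 (sq_nonneg _)
      linarith
    · push Not at hc2
      have k1 : (917 * W - 605) * (1366 * W ^ 2) ^ 2
          ≤ (917 * W - 605) * (B * (839 - 527 * W)) ^ 2 :=
        mul_le_mul_of_nonpos_left h3 hc2.le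
      have k7 : 0 ≤ W ^ 2 * (312 * (1 + W) * (839 - 527 * W) ^ 2
          + (917 * W - 605) * 1865956 * W ^ 2) := by
        refine mul_nonneg hW2.le ?_
        have a1 : 240000 ≤ (839 - 527 * W) ^ 2 := by nlinarith
        have a2 : W ^ 2 ≤ 44 / 100 := by nlinarith
        have a3 : (605 - 917 * W) * W ^ 2 ≤ 120 * (44 / 100) :=
          mul_le_mul (by linarith) a2 hW2.le (by norm_num)
        have a4 : (3 / 2) * 240000 ≤ (1 + W) * (839 - 527 * W) ^ 2 :=
          mul_le_mul (by linarith) a1 (by norm_num) (by linarith)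
        have a5 : (917 * W - 605) * 1865956 * W ^ 2
            = -(1865956 * ((605 - 917 * W) * W ^ 2)) := by ring
        rw [a5]
        have a6 : 312 * (1 + W) * (839 - 527 * W) ^ 2
            = 312 * ((1 + W) * (839 - 527 * W) ^ 2) := by ring
        rw [a6]
        linarith
      have e3 : W ^ 2 * (312 * (1 + W) * (839 - 527 * W) ^ 2
          + (917 * W - 605) * 1865956 * W ^ 2)
          = 312 * W ^ 2 * (1 + W) * (839 - 527 * W) ^ 2
            + (917 * W - 605) * (1366 * W ^ 2) ^ 2 := by ring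
      rw [e3] at k7
      linarith

theorem w1_le' (x : ℝ) : w1 x ≤ 39 / 400 * nu x := by
  have h1 := nu_mul_w1 x
  have h2 := W_planar' (-x)
  rw [b_eq] at h2
  have h5 := H156.nu_pos x
  have hV : v (-x) = V x := rfl
  rw [hV] at h2
  have hr := r2_eq x
  have hQ := Qd_pos x
  set A := 2 * Qd x ^ 2 - (2 * V x ^ 2 - (1 - V x) * (nu x ^ 2 - V x)) with hA
  have k1 : nu x * w1 x = -(2 * nu x ^ 2) + 4 * Qd x * nu x * r x - A * r x ^ 2 := by
    rw [h1, hr, hA]
    ring
  have k2 : 4 * Qd x ^ 2 ≤ 839 / 400 * A := by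
    rw [hA]
    unfold Qd
    nlinarith [h2]
  have hA0 : 0 < A := by nlinarith [pow_pos hQ 2]
  have k3 : 0 ≤ A * (839 / 400 * nu x ^ 2 - 4 * Qd x * nu x * r x + A * r x ^ 2) := by
    have h8 : 0 ≤ (A * r x - 2 * Qd x * nu x) ^ 2 := sq_nonneg _
    have h9 : 0 ≤ (839 / 400 * A - 4 * Qd x ^ 2) * nu x ^ 2 :=
      mul_nonneg (by linarith) (sq_nonneg _)
    have e : A * (839 / 400 * nu x ^ 2 - 4 * Qd x * nu x * r x + A * r x ^ 2)
        = (A * r x - 2 * Qd x * nu x) ^ 2 + (839 / 400 * A - 4 * Qd x ^ 2) * nu x ^ 2 := by ring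
    rw [e]
    linarith
  have k4 : 0 ≤ 839 / 400 * nu x ^ 2 - 4 * Qd x * nu x * r x + A * r x ^ 2 :=
    nonneg_of_mul_nonneg_right k3 hA0
  have h8 : nu x * w1 x ≤ nu x * (39 / 400 * nu x) := by
    rw [k1]
    nlinarith
  exact le_of_mul_le_mul_left h8 h5

theorem abs_w1_le' (x : ℝ) : |w1 x| ≤ 39 / 400 * nu x := by
  have h1 := w1_ge x
  have h2 := w1_le' x
  have h3 := H156.nu_pos x
  rw [abs_le]
  constructor <;> linarith

end Vale.Agent.P254.SP448
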